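import Crest.Agent.R172.W.Cas

/-! R172/W/Lie (owner helper92): from modules over `soD n` to matrix representations -/

set_option autoImplicit false
set_option linter.unusedVariables false
set_option linter.unusedSectionVars false
open Matrix Sum Crest.AlgebraR.SpinSaturation

noncomputable section
namespace Crest.Agent.R172.W
variable {n : ℕ}

theorem liea_JD (p q : L n) : LieAlgebra.Orthogonal.JD (Fin n) ℂ p q = if q = p.swap then 1 else 0 := by
  rcases p with p | p <;> rcases q with q | q <;>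
    simp [LieAlgebra.Orthogonal.JD, Matrix.one_apply, eq_comm]

theorem liea_swap_eq {p q : L n} : p.swap = q ↔ p = q.swap :=
  ⟨fun h => by rw [← h, Sum.swap_swap], fun h => by rw [h, Sum.swap_swap]⟩

theorem liea_swap_inj {p q : L n} : p.swap = q.swap ↔ p = q := by rw [liea_swap_eq, Sum.swap_swap]

theorem liea_mul (a b c d : L n) : (Matrix.single a b (1 : ℂ)) * Matrix.single c d (1 : ℂ) =
    if b = c then Matrix.single a d 1 else 0 := by
  split_ifs with h
  · subst h; rw [Matrix.single_mul_single_same, mul_one]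
  · exact Matrix.single_mul_single_of_ne _ _ _ _ h _

theorem liea_Xm (p q r s : L n) : Xm p q r s =
    (if p = r ∧ q = s then 1 else 0) - (if q.swap = r ∧ p.swap = s then 1 else 0) := by
  simp [Xm, Matrix.single_apply]

/-- `LieAlgebra.Orthogonal.typeD`, `mem_skewAdjointMatricesLieSubalgebra`, `mem_skewAdjointMatricesSubmodule`, `Matrix.IsSkewAdjoint`, `JD` -/
theorem mem_typeD {Y : Matrix (L n) (L n) ℂ} : Y ∈ LieAlgebra.Orthogonal.typeD (Fin n) ℂ ↔ ∀ p q, Y p q = -Y q.swap p.swap := by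
  rw [LieAlgebra.Orthogonal.typeD, mem_skewAdjointMatricesLieSubalgebra, mem_skewAdjointMatricesSubmodule]
  have h1 : ∀ p q, (Yᵀ * LieAlgebra.Orthogonal.JD (Fin n) ℂ) p q = Y q.swap p := by
    intro p q
    rw [Matrix.mul_apply, Finset.sum_eq_single q.swap]
    · simp [liea_JD]
    · intro r _ hr
      rw [liea_JD, if_neg, mul_zero]
      intro h; exact hr (by rw [h, Sum.swap_swap])
    · simp
  have h2 : ∀ p q, (LieAlgebra.Orthogonal.JD (Fin n) ℂ * (-Y)) p q = -Y p.swap q := by
    intro p q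
    rw [Matrix.mul_apply, Finset.sum_eq_single p.swap]
    · simp [liea_JD]
    · intro r _ hr
      rw [liea_JD, if_neg hr, zero_mul]
    · simp
  simp only [Matrix.IsSkewAdjoint, Matrix.IsAdjointPair]
  constructor
  · intro h p q
    have := congrFun (congrFun h q) p.swap
    rwa [h1, h2, Sum.swap_swap] at this
  · intro h
    ext p q
    rw [h1, h2, h, Sum.swap_swap]

theorem Xm_mem (p q : L n) : Xm p q ∈ LieAlgebra.Orthogonal.typeD (Fin n) ℂ := by
  rw [mem_typeD]
  intro r s
  rw [liea_Xm, liea_Xm]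
  have e1 : (p = s.swap ∧ q = r.swap) ↔ (q.swap = r ∧ p.swap = s) := by
    rw [liea_swap_eq, liea_swap_eq, and_comm]
  have e2 : (q.swap = s.swap ∧ p.swap = r.swap) ↔ (p = r ∧ q = s) := by
    rw [liea_swap_inj, liea_swap_inj, and_comm]
  simp only [e1, e2]
  ring

/-- the generators of `so(2n)` -/
def X (p q : L n) : soD n := ⟨Xm p q, Xm_mem p q⟩

theorem X_skew (p q : L n) : X p q = -X q.swap p.swap := by
  apply Subtype.ext
  change Xm p q = -Xm q.swap p.swap
  simp [Xm]

/-- `Matrix.single_mul_single_same`, `single_mul_single_of_ne` (or entrywise) -/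
theorem X_comm (p q r s : L n) : ⁅X p q, X r s⁆ = (if q = r then X p s else 0) - (if p = s then X r q else 0) -
    (if q = s.swap then X p r.swap else 0) - (if p.swap = r then X q.swap s else 0) := by
  apply Subtype.ext
  have hc : ∀ (c : Prop) [Decidable c] (a b : L n),
      ((if c then X a b else 0 : soD n) : Matrix (L n) (L n) ℂ) = if c then Xm a b else 0 := by
    intro c _ a b
    split_ifs <;> rfl
  change Xm p q * Xm r s - Xm r s * Xm p q =
    ((if q = r then X p s else 0 : soD n) : Matrix (L n) (L n) ℂ) - ((if p = s then X r q else 0 : soD n) : Matrix (L n) (L n) ℂ) -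
    ((if q = s.swap then X p r.swap else 0 : soD n) : Matrix (L n) (L n) ℂ) -
    ((if p.swap = r then X q.swap s else 0 : soD n) : Matrix (L n) (L n) ℂ)
  rw [hc, hc, hc, hc]
  have e1 : (p.swap = s.swap) ↔ p = s := liea_swap_inj
  have e2 : (s = p) ↔ p = s := eq_comm
  have e3 : (s = q.swap) ↔ q = s.swap := by rw [eq_comm, liea_swap_eq]
  have e4 : (r.swap = p) ↔ p.swap = r := by rw [liea_swap_eq, eq_comm]
  have e5 : (r.swap = q.swap) ↔ q = r := by rw [liea_swap_inj, eq_comm]
  simp only [Xm, mul_sub, sub_mul, liea_mul, e1, e2, e3, e4, e5, Sum.swap_swap]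
  split_ifs <;> abel

theorem X_span (Y : soD n) : Y = ∑ p, ∑ q, ((Y : Matrix (L n) (L n) ℂ) p q / 2) • X p q := by
  apply Subtype.ext
  have hY := mem_typeD.1 Y.2
  have : ((∑ p, ∑ q, ((Y : Matrix (L n) (L n) ℂ) p q / 2) • X p q : soD n) : Matrix (L n) (L n) ℂ) =
      ∑ p, ∑ q, ((Y : Matrix (L n) (L n) ℂ) p q / 2) • Xm p q := by
    rw [AddSubmonoidClass.coe_finset_sum]
    refine Finset.sum_congr rfl fun p _ => ?_
    rw [AddSubmonoidClass.coe_finset_sum]
    rfl
  rw [this]
  ext r s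
  simp only [Matrix.sum_apply, Matrix.smul_apply, liea_Xm, smul_eq_mul, mul_sub, Finset.sum_sub_distrib]
  have a1 : ∑ p : L n, ∑ q : L n, (Y : Matrix (L n) (L n) ℂ) p q / 2 * (if p = r ∧ q = s then 1 else 0) =
      (Y : Matrix (L n) (L n) ℂ) r s / 2 := by
    rw [Finset.sum_eq_single r, Finset.sum_eq_single s]
    · simp
    · intro q _ hq; simp [hq]
    · simp
    · intro p _ hp; simp [hp]
    · simp
  have a2 : ∑ p : L n, ∑ q : L n, (Y : Matrix (L n) (L n) ℂ) p q / 2 * (if q.swap = r ∧ p.swap = s then 1 else 0) =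
      (Y : Matrix (L n) (L n) ℂ) s.swap r.swap / 2 := by
    rw [Finset.sum_eq_single s.swap, Finset.sum_eq_single r.swap]
    · simp
    · intro q _ hq; simp [liea_swap_eq, hq]
    · simp
    · intro p _ hp; simp [liea_swap_eq, hp]
    · simp
  rw [a1, a2, hY r s]
  ring

section
variable {M : Type*} [AddCommGroup M] [Module ℂ M] [LieRingModule (soD n) M] [LieModule ℂ (soD n) M]

/-- weight vectors -/
def IsWV (μ : Wt n) (v : M) : Prop := ∀ i, ⁅X (inl i) (inl i), v⁆ = ((μ i : ℂ) / 2) • v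

/-- `IsHighestWeightVector` at `h = Pi.single i 1`, and at the positive root vectors -/
theorem hw_of {a : Wt n} {v : M} (h : IsHighestWeightVector n a v) :
    v ≠ 0 ∧ IsWV a v ∧ ∀ t ∈ pr n, ⁅X (inl t.1) (l2 t), v⁆ = 0 := by
  obtain ⟨h0, h1, h2⟩ := h
  refine ⟨h0, fun i => ?_, fun t ht => ?_⟩
  · rw [h1 (Pi.single i 1) (X (inl i) (inl i))]
    · congr 1
      rw [Finset.sum_eq_single i]
      · simp
      · intro j _ hj; simp [hj]
      · simp
    · change Xm (inl i) (inl i) = _
      ext r s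
      rw [liea_Xm]
      clear h1 h2
      rcases r with r | r <;> rcases s with s | s <;>
        simp [Matrix.diagonal_apply, Pi.single_apply] <;> split_ifs <;> grind
  · have hlt : t.1 < t.2.1 := (Finset.mem_filter.1 ht).2
    apply h2
    · intro i j
      change Xm (inl t.1) (l2 t) (inr i) (inl j) = 0
      rw [liea_Xm]
      simp
    · intro i j hji
      change Xm (inl t.1) (l2 t) (inl i) (inl j) = 0
      rw [liea_Xm]
      clear h1 h2
      unfold l2
      split_ifs with h1 h2 h3 <;> simp_all <;> omega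

theorem lb_H (i : Fin n) (p q : L n) : ⁅X (inl i) (inl i), X p q⁆ = (((ev p - ev q) i : ℤ) : ℂ) • X p q := by
  have e1 : (if (inl i : L n) = p then X (inl i) q else 0) - (if (inl i : L n).swap = p then X (inl i : L n).swap q else 0) =
      ((ev p i : ℤ) : ℂ) • X p q := by
    rcases p with j | j <;> by_cases hj : i = j
    · subst hj; simp [ev]
    · simp [ev, hj]
    · subst hj; simp [ev]
    · simp [ev, hj]
  have e2 : (if (inl i : L n) = q then X p (inl i) else 0) + (if (inl i : L n) = q.swap then X (inl i) p.swap else 0) =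
      ((ev q i : ℤ) : ℂ) • X p q := by
    rcases q with j | j <;> by_cases hj : i = j
    · subst hj; simp [ev]
    · simp [ev, hj]
    · subst hj; rw [X_skew p (inr i)]; simp [ev]
    · simp [ev, hj]
  rw [X_comm, Pi.sub_apply, Int.cast_sub, sub_smul, ← e1, ← e2]
  abel

/-- `X_comm (inl i) (inl i) p q`, `leibniz_lie` -/
theorem IsWV.lie {μ : Wt n} {v : M} (h : IsWV μ v) (p q : L n) : IsWV (μ + 2 • (ev p - ev q)) ⁅X p q, v⁆ := by

  intro i
  rw [leibniz_lie, lb_H, smul_lie, h i, lie_smul, ← add_smul]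
  congr 1
  simp only [Pi.add_apply, two_nsmul]
  push_cast
  ring

/-- PBW-lite.  `N k` = span of the words of length `≤ k` in the negative root vectors `X (l2 t) (inl t.1)`, `t ∈ pr n`, applied to `v`.  By induction on the word: the Cartan
and positive generators map `N k` to `N k` (`⁅x, ⁅f, u⁆⁆ = ⁅⁅x, f⁆, u⁆ + ⁅f, ⁅x, u⁆⁆`), every element of `soD n` maps `N k` to `N (k + 1)` (`X_span`, `pair_cases`, `X_skew`).
The union is a non-zero Lie submodule; words are weight vectors of weight `≤ a` (`IsWV.lie`, `bt_eq`, `dom_iff`). -/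
theorem span_wv [LieModule.IsIrreducible ℂ (soD n) M] {a : Wt n} {v : M} (h : IsHighestWeightVector n a v) :
    Submodule.span ℂ {u : M | ∃ μ, Le μ a ∧ IsWV μ u} = ⊤ := by

  obtain ⟨hv0, hwv, hpos⟩ := hw_of h
  let P : Submodule ℂ M → Prop := fun W => v ∈ W ∧ ∀ t ∈ pr n, ∀ u ∈ W, ⁅X (l2 t) (inl t.1), u⁆ ∈ W
  let N : Submodule ℂ M := sInf {W | P W}
  have hN : P N := ⟨Submodule.mem_sInf.2 fun W hW => hW.1,
    fun t ht u hu => Submodule.mem_sInf.2 fun W hW => hW.2 t ht u (Submodule.mem_sInf.1 hu W hW)⟩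
  have hx : ∀ p q : L n, ⁅X p q, v⁆ ∈ N := by
    intro p q
    rcases pair_cases p q with rfl | rfl | ⟨t, ht, ⟨rfl, rfl⟩ | ⟨h1, h2⟩ | ⟨rfl, rfl⟩ | ⟨h1, h2⟩⟩
    · rcases p with i | i
      · rw [hwv i]; exact N.smul_mem _ hN.1
      · rw [X_skew, neg_lie, Sum.swap_inr, hwv i]; exact N.neg_mem (N.smul_mem _ hN.1)
    · have e := X_skew q.swap q
      rw [Sum.swap_swap] at e
      have e2 : (2 : ℂ) • X q.swap q = 0 := by rw [two_smul]; exact eq_neg_iff_add_eq_zero.1 e
      rw [(smul_eq_zero.1 e2).resolve_left two_ne_zero, zero_lie]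
      exact N.zero_mem
    · rw [hpos t ht]; exact N.zero_mem
    · rw [X_skew, h1, h2, neg_lie, hpos t ht, neg_zero]; exact N.zero_mem
    · exact hN.2 t ht v hN.1
    · rw [X_skew, h1, h2, neg_lie]; exact N.neg_mem (hN.2 t ht v hN.1)
  have hb : ∀ Y : soD n, ⁅Y, v⁆ ∈ N := fun Y => by
    rw [X_span Y, sum_lie]
    refine N.sum_mem fun p _ => ?_
    rw [sum_lie]
    exact N.sum_mem fun q _ => by rw [smul_lie]; exact N.smul_mem _ (hx p q)
  let N' : Submodule ℂ M :=
    { carrier := {u | u ∈ N ∧ ∀ Y : soD n, ⁅Y, u⁆ ∈ N}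
      add_mem' := fun a b => ⟨N.add_mem a.1 b.1, fun Y => by rw [lie_add]; exact N.add_mem (a.2 Y) (b.2 Y)⟩
      zero_mem' := ⟨N.zero_mem, fun Y => by rw [lie_zero]; exact N.zero_mem⟩
      smul_mem' := fun c u a => ⟨N.smul_mem c a.1, fun Y => by rw [lie_smul]; exact N.smul_mem c (a.2 Y)⟩ }
  have h1 : N ≤ N' := sInf_le ⟨⟨hN.1, hb⟩, fun t ht u hu => ⟨hN.2 t ht u hu.1, fun Y => by
    rw [leibniz_lie]; exact N.add_mem (hu.2 _) (hN.2 t ht _ (hu.2 Y))⟩⟩
  let N'' : LieSubmodule ℂ (soD n) M := { N with lie_mem := fun {Y u} hu => (h1 hu).2 Y }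
  have h2 : N'' = ⊤ := (eq_bot_or_eq_top N'').resolve_left fun e => hv0 (by
    have : v ∈ N'' := hN.1
    rwa [e, LieSubmodule.mem_bot] at this)
  refine top_le_iff.1 (le_trans (fun u _ => show u ∈ N'' from h2 ▸ LieSubmodule.mem_top u) (sInf_le ⟨?_, fun t ht u hu => ?_⟩ : N ≤ _))
  · exact Submodule.subset_span ⟨a, fun _ _ => le_rfl, hwv⟩
  · induction hu using Submodule.span_induction with
    | mem u hu =>
      obtain ⟨μ, hle, hμ⟩ := hu
      refine Submodule.subset_span ⟨_, fun κ hκ => ?_, hμ.lie _ _⟩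
      have e := dom_iff.1 hκ t ht
      rw [bt_eq, dotProduct_comm] at e
      rw [dotProduct_add, two_nsmul, dotProduct_add, ← neg_sub, dotProduct_neg]
      linarith [hle κ hκ]
    | zero => rw [lie_zero]; exact Submodule.zero_mem _
    | add x y _ _ hx hy => rw [lie_add]; exact Submodule.add_mem _ hx hy
    | smul c x _ hx => rw [lie_smul]; exact Submodule.smul_mem _ c hx

variable {ι : Type*} [Fintype ι] [DecidableEq ι]

/-- the matrix representation in a weight basis -/
def toMRep (b : Module.Basis ι ℂ M) (wt : ι → Wt n) (h : ∀ k, IsWV (wt k) (b k)) : MRep n ι where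
  F p q := LinearMap.toMatrix b b (LieModule.toEnd ℂ (soD n) M (X p q))
  wt := wt
  skew := by
    intro p q
    rw [X_skew p q, map_neg, map_neg]
  comm := by
    intro p q r s
    have hl : ∀ x y : soD n, LieModule.toEnd ℂ (soD n) M x * LieModule.toEnd ℂ (soD n) M y -
        LieModule.toEnd ℂ (soD n) M y * LieModule.toEnd ℂ (soD n) M x = LieModule.toEnd ℂ (soD n) M ⁅x, y⁆ := fun x y => by
      ext u
      simp only [LinearMap.sub_apply, Module.End.mul_apply, LieModule.toEnd_apply_apply, lie_lie]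
    rw [← LinearMap.toMatrix_mul, ← LinearMap.toMatrix_mul, ← map_sub, hl, X_comm]
    simp only [map_sub]
    split_ifs <;> simp only [map_zero]
  diag := by
    intro i
    ext k l
    rw [LinearMap.toMatrix_apply, LieModule.toEnd_apply_apply, h l i, map_smul, Finsupp.smul_apply, b.repr_self,
      Finsupp.single_apply, diagonal_apply]
    by_cases hkl : k = l
    · subst hkl; simp
    · rw [if_neg (Ne.symm hkl), if_neg hkl, smul_zero]

/-- `LinearMap.toMatrix_mulVec_repr` -/
theorem toMRep_mulVec (b : Module.Basis ι ℂ M) (wt : ι → Wt n) (h : ∀ k, IsWV (wt k) (b k)) (p q : L n) (u : M) :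
    (toMRep b wt h).F p q *ᵥ b.equivFun u = b.equivFun ⁅X p q, u⁆ := by
  have := LinearMap.toMatrix_mulVec_repr b b (LieModule.toEnd ℂ (soD n) M (X p q)) u
  simpa [toMRep, Module.Basis.equivFun_apply] using this

theorem lc_lie_span (Y : soD n) (u : M) :
    ⁅Y, u⁆ = ∑ p, ∑ q, ((Y : Matrix (L n) (L n) ℂ) p q / 2) • ⁅X p q, u⁆ := by
  conv_lhs => rw [X_span Y]
  rw [sum_lie]
  refine Finset.sum_congr rfl fun p _ => ?_
  rw [sum_lie]
  refine Finset.sum_congr rfl fun q _ => ?_
  rw [smul_lie]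

/-- `X_span` -/
theorem inv_toMRep (b : Module.Basis ι ℂ M) (wt : ι → Wt n) (h : ∀ k, IsWV (wt k) (b k)) :
    (∃ u : M, u ≠ 0 ∧ ∀ Y : soD n, ⁅Y, u⁆ = 0) ↔ ∃ v : ι → ℂ, v ≠ 0 ∧ ∀ p q, (toMRep b wt h).F p q *ᵥ v = 0 := by
  constructor
  · rintro ⟨u, hu, hY⟩
    refine ⟨b.equivFun u, fun h0 => hu (b.equivFun.map_eq_zero_iff.1 h0), fun p q => ?_⟩
    rw [toMRep_mulVec, hY, map_zero]
  · rintro ⟨v, hv, hF⟩
    obtain ⟨u, rfl⟩ := b.equivFun.surjective v
    refine ⟨u, fun h0 => hv (by rw [h0, map_zero]), fun Y => ?_⟩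
    rw [lc_lie_span]
    refine Finset.sum_eq_zero fun p _ => Finset.sum_eq_zero fun q _ => ?_
    have h1 := hF p q
    rw [toMRep_mulVec] at h1
    rw [b.equivFun.map_eq_zero_iff.1 h1, smul_zero]

theorem hw_toMRep (b : Module.Basis ι ℂ M) (wt : ι → Wt n) (h : ∀ k, IsWV (wt k) (b k)) {a : Wt n} {v : M}
    (hv : IsHighestWeightVector n a v) : (toMRep b wt h).HW a (b.equivFun v) := by
  obtain ⟨h0, h1, h2⟩ := hw_of hv
  refine ⟨fun h' => h0 (b.equivFun.map_eq_zero_iff.1 h'), fun i => ?_, fun t ht => ?_⟩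
  · rw [toMRep_mulVec, h1 i, map_smul]
  · rw [MRep.E, toMRep_mulVec, h2 t ht, map_zero]

/-- `{u | φ *ᵥ b.equivFun u = c • b.equivFun u}` is a non-zero Lie submodule (`X_span`) -/
theorem schur_toMRep [LieModule.IsIrreducible ℂ (soD n) M] (b : Module.Basis ι ℂ M) (wt : ι → Wt n) (h : ∀ k, IsWV (wt k) (b k))
    {φ : Matrix ι ι ℂ} (hφ : (toMRep b wt h).Cm φ) {c : ℂ} {v : ι → ℂ} (hv : v ≠ 0) (hc : φ *ᵥ v = c • v) : φ = c • (1 : Matrix ι ι ℂ) := by
  let N : LieSubmodule ℂ (soD n) M :=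
    { carrier := {u | φ *ᵥ b.equivFun u = c • b.equivFun u}
      add_mem' := fun {u u'} hu hu' => by
        simp only [Set.mem_ofPred_eq] at hu hu' ⊢
        rw [map_add, mulVec_add, hu, hu', smul_add]
      zero_mem' := by
        simp only [Set.mem_ofPred_eq]
        rw [map_zero, mulVec_zero, smul_zero]
      smul_mem' := fun r u hu => by
        simp only [Set.mem_ofPred_eq] at hu ⊢
        rw [map_smul, mulVec_smul, hu, smul_comm]
      lie_mem := fun {Y u} hu => by
        simp only [Set.mem_ofPred_eq] at hu ⊢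
        rw [lc_lie_span, map_sum, mulVec_sum, Finset.smul_sum]
        refine Finset.sum_congr rfl fun p _ => ?_
        rw [map_sum, mulVec_sum, Finset.smul_sum]
        refine Finset.sum_congr rfl fun q _ => ?_
        rw [map_smul, mulVec_smul, smul_comm c, ← toMRep_mulVec b wt h, mulVec_mulVec, ← hφ p q, ← mulVec_mulVec, hu,
          mulVec_smul] }
  have hN : ∀ u, u ∈ N ↔ φ *ᵥ b.equivFun u = c • b.equivFun u := fun u => Iff.rfl
  obtain ⟨u, rfl⟩ := b.equivFun.surjective v
  have hne : N ≠ ⊥ := by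
    intro h0
    have : u ∈ N := (hN u).2 hc
    rw [h0, LieSubmodule.mem_bot] at this
    exact hv (by rw [this, map_zero])
  have htop : N = ⊤ := (eq_bot_or_eq_top N).resolve_left hne
  have hall : ∀ w : ι → ℂ, φ *ᵥ w = c • w := fun w => by
    obtain ⟨u', rfl⟩ := b.equivFun.surjective w
    exact (hN u').1 (htop ▸ LieSubmodule.mem_top u')
  ext k l
  have := congrFun (hall (Pi.single l 1)) k
  rw [mulVec_single_one] at this
  simp only [Matrix.col_apply, Pi.smul_apply, Pi.single_apply, smul_eq_mul] at this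
  rw [this, Matrix.smul_apply, Matrix.one_apply, smul_eq_mul]
end

/-- `exists_linearIndependent` inside the spanning set of `span_wv`, `Module.Basis.mk`, reindex by `Fin d` -/
theorem exists_wb {a : Wt n} (U : Irrep n a) : ∃ (d : ℕ) (b : Module.Basis (Fin (d + 1)) ℂ U.V) (wt : Fin (d + 1) → Wt n),
    (∀ k, IsWV (wt k) (b k)) ∧ ∀ k, Le (wt k) a := by
  have := U.irreducible
  have := U.finiteDimensional
  obtain ⟨v, hv⟩ := U.highestWeight
  have hsp := span_wv hv
  obtain ⟨s, hs, hspan, hli⟩ := exists_linearIndependent ℂ {u : U.V | ∃ μ, Le μ a ∧ IsWV μ u}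
  rw [hsp] at hspan
  let b0 : Module.Basis s ℂ U.V := Module.Basis.mk hli (by rw [Subtype.range_coe, hspan])
  have : Nontrivial U.V := ⟨⟨v, 0, hv.1⟩⟩
  have : Finite s := Module.Finite.finite_basis b0
  have : Nonempty s := b0.index_nonempty
  obtain ⟨d, hd⟩ : ∃ d, Nat.card s = d + 1 := ⟨Nat.card s - 1, by have := Nat.card_pos (α := s); omega⟩
  let e : s ≃ Fin (d + 1) := Finite.equivFinOfCardEq hd
  have hw : ∀ x : s, ∃ μ, Le μ a ∧ IsWV μ (x : U.V) := fun x => hs x.2
  choose μ hμ1 hμ2 using hw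
  refine ⟨d, b0.reindex e, fun k => μ (e.symm k), fun k => ?_, fun k => hμ1 _⟩
  rw [Module.Basis.reindex_apply, Module.Basis.mk_apply]
  exact hμ2 _

/-- `TensorProduct.LieModule.lie_tmul_right` -/
theorem IsWV.tmul {M M' : Type*} [AddCommGroup M] [Module ℂ M] [LieRingModule (soD n) M] [LieModule ℂ (soD n) M]
    [AddCommGroup M'] [Module ℂ M'] [LieRingModule (soD n) M'] [LieModule ℂ (soD n) M'] {μ μ' : Wt n} {v : M} {v' : M'}
    (h : IsWV μ v) (h' : IsWV μ' v') : IsWV (μ + μ') (v ⊗ₜ[ℂ] v') := by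

  intro i
  rw [TensorProduct.LieModule.lie_tmul_right, h i, h' i, ← TensorProduct.smul_tmul', TensorProduct.tmul_smul, ← add_smul]
  congr 1
  simp only [Pi.add_apply]
  push_cast
  ring

end Crest.Agent.R172.W
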