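import Crest.Agent.R172.W.Inv
import Crest.Agent.R172.W.Lie

/-! R172/W/Main (owner helper92): output of the block -/

set_option autoImplicit false
set_option linter.unusedVariables false
set_option linter.unusedSectionVars false
open Matrix Sum Crest.AlgebraR.SpinSaturation

noncomputable section
namespace Crest.Agent.R172.W
variable {n : ℕ}

/-- `exists_wb`, `hw_toMRep`, `HW.Cas`, `schur_toMRep`, `wcf` -/
theorem irrep_wcf {a : Wt n} (ha : Dom a) (U : Irrep n a) : ∃ (d : ℕ) (b : Module.Basis (Fin (d + 1)) ℂ U.V) (wt : Fin (d + 1) → Wt n) (m : ℂ),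
    (∀ k, IsWV (wt k) (b k)) ∧ Sym (chw wt) ∧ m ≠ 0 ∧ dl n * chw wt = m • A (a + rho n) := by
  obtain ⟨d, b, wt, h, hle⟩ := exists_wb U
  obtain ⟨v, hv⟩ := U.highestWeight
  have := U.irreducible
  have h1 := hw_toMRep b wt h hv
  have h2 := schur_toMRep b wt h (toMRep b wt h).cm_Cas h1.ne h1.Cas
  obtain ⟨m, hm, hm'⟩ := (toMRep b wt h).wcf ha h2 hle
  exact ⟨d, b, wt, m, h, (toMRep b wt h).sym_chw, hm, hm'⟩

/-- OUTPUT of the block.  With `f = dl * chU * chV * chW` (alternating): `HasInvariant ↔ f.coeff ρ ≠ 0` (`inv_toMRep`, `inv_iff`, `chw_prod`);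
`(dl * f).coeff 0` computed twice by `coeff_A_mul_zero`; `chV = (mV / m₀) • χ` by cancelling `dl`. -/
theorem hasInvariant_iff {a b c : Wt n} (ha : Dom a) (hb : Dom b) (hc : Dom c) (U : Irrep n a) (V : Irrep n b) (W : Irrep n c)
    {χ : GR n} (hχ : A (rho n) * χ = A (b + rho n)) :
    HasInvariant U V W ↔ (A (a + rho n) * χ).coeff (dual c + rho n) ≠ 0 := by
  obtain ⟨d₁, b₁, w₁, m₁, h₁, s₁, hm₁, e₁⟩ := irrep_wcf ha U
  obtain ⟨d₂, b₂, w₂, m₂, h₂, s₂, hm₂, e₂⟩ := irrep_wcf hb V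
  obtain ⟨d₃, b₃, w₃, m₃, h₃, s₃, hm₃, e₃⟩ := irrep_wcf hc W
  obtain ⟨hm₀, e₀⟩ := dl_eq_A n
  generalize (dl n).coeff (rho n) = m₀ at hm₀ e₀
  have hb' : ∀ k : Fin (d₁ + 1) × Fin (d₂ + 1) × Fin (d₃ + 1), IsWV (w₁ k.1 + (w₂ k.2.1 + w₃ k.2.2))
      ((b₁.tensorProduct (b₂.tensorProduct b₃)) k) := by
    rintro ⟨i, j, k⟩
    rw [Module.Basis.tensorProduct_apply, Module.Basis.tensorProduct_apply]
    exact (h₁ i).tmul ((h₂ j).tmul (h₃ k))
  have hch : chw (fun k : Fin (d₁ + 1) × Fin (d₂ + 1) × Fin (d₃ + 1) => w₁ k.1 + (w₂ k.2.1 + w₃ k.2.2)) =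
      chw w₁ * (chw w₂ * chw w₃) := by
    rw [← chw_prod w₂ w₃]
    exact chw_prod w₁ fun k : Fin (d₂ + 1) × Fin (d₃ + 1) => w₂ k.1 + w₃ k.2
  have key := (inv_toMRep _ _ hb').trans (toMRep _ _ hb').inv_iff
  change HasInvariant U V W ↔ (dl n * chw fun k : Fin (d₁ + 1) × Fin (d₂ + 1) × Fin (d₃ + 1) =>
    w₁ k.1 + (w₂ k.2.1 + w₃ k.2.2)).coeff (rho n) ≠ 0 at key
  rw [key, hch]
  have hχ' : m₀ • chw w₂ = m₂ • χ := by
    apply mul_left_cancel₀ (dl_ne_zero (n := n))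
    rw [mul_smul_comm, e₂, mul_smul_comm, ← hχ, e₀, smul_mul_assoc, smul_comm]
  have hW : (Fintype.card (WG n) : ℂ) ≠ 0 := Nat.cast_ne_zero.2 Fintype.card_ne_zero
  have hf : Alt (dl n * (chw w₁ * (chw w₂ * chw w₃))) := alt_dl.mul_sym (s₁.mul (s₂.mul s₃))
  have hg : Alt (A (a + rho n) * chw w₂) := (alt_A _).mul_sym s₂
  have c1 := coeff_A_mul_zero hf (rho n)
  have c2 := coeff_A_mul_zero hg (c + rho n)
  have hr : dual (rho n) = rho n := by
    have := dual_add_rho (0 : Wt n)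
    rw [zero_add] at this
    rw [this]
    funext i
    simp [dual]
  rw [hr] at c1
  rw [dual_add_rho] at c2
  have c3 : m₀ • (A (rho n) * (dl n * (chw w₁ * (chw w₂ * chw w₃)))) =
      (m₃ * m₁) • (A (c + rho n) * (A (a + rho n) * chw w₂)) := by
    rw [← smul_mul_assoc, ← e₀, ← smul_mul_smul_comm, ← smul_mul_assoc, ← e₁, ← e₃]
    ring
  have c4 := congrArg (fun f : GR n => f.coeff 0) c3
  simp only [AddMonoidAlgebra.coeff_smul_apply, c1, c2, smul_eq_mul] at c4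
  have c5 := congrArg (fun f : GR n => (A (a + rho n) * f).coeff (dual c + rho n)) hχ'
  simp only [mul_smul_comm, AddMonoidAlgebra.coeff_smul_apply, smul_eq_mul] at c5
  have c6 : m₀ * m₀ * (dl n * (chw w₁ * (chw w₂ * chw w₃))).coeff (rho n) =
      m₃ * m₁ * m₂ * (A (a + rho n) * χ).coeff (dual c + rho n) := by
    apply mul_left_cancel₀ hW
    linear_combination m₀ * c4 + m₃ * m₁ * (Fintype.card (WG n) : ℂ) * c5
  refine not_congr ⟨fun h => ?_, fun h => ?_⟩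
  · rw [h, mul_zero] at c6
    exact (mul_eq_zero.1 c6.symm).resolve_left (mul_ne_zero (mul_ne_zero hm₃ hm₁) hm₂)
  · rw [h, mul_zero] at c6
    exact (mul_eq_zero.1 c6).resolve_left (mul_ne_zero hm₀ hm₀)

end Crest.Agent.R172.W
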