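import Crest.Agent.R172.W.Grp

/-! R172/W/Alt (owner helper92): alternating and symmetric elements of the group ring -/

set_option autoImplicit false
set_option linter.unusedVariables false
set_option linter.unusedSectionVars false
open Matrix Sum Crest.AlgebraR.SpinSaturation

noncomputable section
namespace Crest.Agent.R172.W
variable {n : ℕ}

theorem ex_add (μ ν : Wt n) : ex (μ + ν) = ex μ * ex ν := by
  simp only [ex, AddMonoidAlgebra.single_mul_single, mul_one]

theorem ex_zero : ex (0 : Wt n) = 1 := by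
  rfl

theorem coeff_ex (μ ν : Wt n) : (ex μ).coeff ν = if μ = ν then 1 else 0 := by
  rw [ex, AddMonoidAlgebra.coeff_single, Finsupp.single_apply]

theorem coeff_ex_mul (μ ν : Wt n) (f : GR n) : (ex μ * f).coeff ν = f.coeff (ν - μ) := by
  rw [ex, AddMonoidAlgebra.coeff_single_mul_apply, one_mul, neg_add_eq_sub]

theorem coeff_chw {ι : Type*} [Fintype ι] (wt : ι → Wt n) (μ : Wt n) : (chw wt).coeff μ = ∑ k, if wt k = μ then 1 else 0 := by
  rw [chw, AddMonoidAlgebra.coeff_sum, Finsupp.finsetSum_apply]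
  exact Finset.sum_congr rfl fun k _ => coeff_ex _ _

theorem chw_ne_zero {ι : Type*} [Fintype ι] [Nonempty ι] (wt : ι → Wt n) : chw wt ≠ 0 := by
  intro h
  obtain ⟨k⟩ := ‹Nonempty ι›
  have h1 := coeff_chw wt (wt k)
  rw [h, Finset.sum_boole] at h1
  have h2 : (Finset.univ.filter fun j => wt j = wt k).card = 0 := by
    have h3 : (((Finset.univ.filter fun j => wt j = wt k).card : ℕ) : ℂ) = 0 := h1.symm
    exact_mod_cast h3
  exact (Finset.card_eq_zero.1 h2 ▸ Finset.notMem_empty k) (Finset.mem_filter.2 ⟨Finset.mem_univ k, rfl⟩)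

theorem chw_prod {ι ι' : Type*} [Fintype ι] [Fintype ι'] (wt : ι → Wt n) (wt' : ι' → Wt n) :
    chw (fun k : ι × ι' => wt k.1 + wt' k.2) = chw wt * chw wt' := by
  simp only [chw, ex_add, Finset.sum_mul_sum, Fintype.sum_prod_type]

theorem alta_inj (w : WG n) : Function.Injective (act w) := fun μ ν h => by
  have := congrArg (act w⁻¹) h
  rwa [← act_mul, ← act_mul, inv_mul_cancel, act_one, act_one] at this

/-- the action on the group ring (`AddMonoidAlgebra.mapDomainAlgHom` or `AddMonoidAlgebra.lift`) -/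
theorem exists_mapW (w : WG n) : ∃ T : GR n →ₐ[ℂ] GR n, (∀ μ, T (ex μ) = ex (act w μ)) ∧ ∀ f μ, (T f).coeff (act w μ) = f.coeff μ := by
  refine ⟨AddMonoidAlgebra.mapDomainAlgHom ℂ ℂ (act w), fun μ => ?_, fun f μ => ?_⟩
  · simp [ex]
  · exact Finsupp.mapDomain_apply (alta_inj w) _ _

/-- `WG.induction` -/
theorem sym_of_simple {f : GR n} (h : ∀ t, IsSimple t → ∀ μ, f.coeff (act (rf t) μ) = f.coeff μ) : Sym f := by
  intro w
  refine WG.induction (P := fun w => ∀ μ, f.coeff (act w μ) = f.coeff μ) (fun μ => by rw [act_one]) h (fun w w' h1 h2 μ => ?_) w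
  rw [act_mul, h1, h2]

theorem alta_key (w : WG n) {f g : GR n} {c : ℂ} (hf : ∀ μ, f.coeff (act w μ) = c * f.coeff μ) (hg : ∀ μ, g.coeff (act w μ) = g.coeff μ)
    (μ : Wt n) : (f * g).coeff (act w μ) = c * (f * g).coeff μ := by
  obtain ⟨T, -, hT⟩ := exists_mapW w⁻¹
  have h0 : ∀ f ν, (T f).coeff ν = f.coeff (act w ν) := fun f ν => by
    rw [← hT f (act w ν), ← act_mul, inv_mul_cancel, act_one]
  have h1 : T f = c • f := by ext ν; rw [h0, hf]; rfl
  have h2 : T g = g := by ext ν; rw [h0, hg]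
  rw [← h0, map_mul, h1, h2, smul_mul_assoc]
  rfl

/-- with `T` from `exists_mapW w`: `Sym f ↔ ∀ w, T f = f`, `Alt f ↔ ∀ w, T f = sgn w • f` -/
theorem Sym.mul {f g : GR n} (hf : Sym f) (hg : Sym g) : Sym (f * g) := by
  intro w μ
  rw [alta_key w (c := 1) (fun μ => by rw [hf, one_mul]) (hg w), one_mul]

theorem Alt.mul_sym {f g : GR n} (hf : Alt f) (hg : Sym g) : Alt (f * g) := by
  exact fun w μ => alta_key w (hf w) (hg w) μ

theorem altb_act_inj (w : WG n) : Function.Injective (act w) := fun μ ν h => by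
  have := congrArg (act w⁻¹) h
  rwa [← act_mul, ← act_mul, inv_mul_cancel, act_one, act_one] at this

theorem altb_coeff_A (μ ν : Wt n) : (A μ).coeff ν = ∑ w : WG n, sgn w * if act w μ = ν then 1 else 0 := by
  simp only [A, AddMonoidAlgebra.coeff_sum, Finsupp.finsetSum_apply, AddMonoidAlgebra.coeff_smul_apply, coeff_ex, smul_eq_mul]

/-- reindex by `Equiv.mulRight w` -/
theorem A_act (w : WG n) (μ : Wt n) : A (act w μ) = sgn w • A μ := by
  unfold A
  rw [Finset.smul_sum, ← Equiv.sum_comp (Equiv.mulRight w) (fun u => sgn w • sgn u • ex (act u μ))]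
  refine Finset.sum_congr rfl fun u _ => ?_
  simp only [Equiv.coe_mulRight, act_mul, sgn_mul, smul_smul]
  rw [mul_left_comm, sgn_mul_self, mul_one]

theorem A_rf {t : Rt n} (ht : t.1 ≠ t.2.1) (μ : Wt n) : A (act (rf t) μ) = -A μ := by
  rw [A_act, sgn_rf ht, neg_one_smul]

/-- reindex by `Equiv.mulLeft w` -/
theorem alt_A (μ : Wt n) : Alt (A μ) := by
  intro w ν
  rw [altb_coeff_A, altb_coeff_A, Finset.mul_sum,
    ← Equiv.sum_comp (Equiv.mulLeft w) (fun u => sgn u * if act u μ = act w ν then 1 else 0)]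
  refine Finset.sum_congr rfl fun u _ => ?_
  simp only [Equiv.coe_mulLeft, act_mul, sgn_mul, (altb_act_inj w).eq_iff, mul_assoc]

/-- `eq_one_of_sdom` -/
theorem coeff_A_sdom {μ ν : Wt n} (hμ : SDom μ) (hν : Dom ν) : (A μ).coeff ν = if μ = ν then 1 else 0 := by
  rw [altb_coeff_A, Finset.sum_eq_single 1]
  · simp
  · intro w _ hw
    rw [if_neg, mul_zero]
    intro h
    exact hw (eq_one_of_sdom hμ (h ▸ hν))
  · simp

/-- a dominant weight that is not strictly dominant is fixed by a reflection (`dom_iff`, `sdom_iff`, `act_rf`, `sgn_rf`) -/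
theorem Alt.coeff_wall {f : GR n} (hf : Alt f) {ν : Wt n} (hν : Dom ν) (hν' : ¬SDom ν) : f.coeff ν = 0 := by
  rw [sdom_iff] at hν'
  push Not at hν'
  obtain ⟨t, ht, h0⟩ := hν'
  have h1 := dom_iff.1 hν t ht
  have h2 : bt t ⬝ᵥ ν = 0 := le_antisymm h0 h1
  have hne : t.1 ≠ t.2.1 := (mem_pr.1 ht).ne
  have h3 := hf (rf t) ν
  rw [act_rf hne, h2, zero_smul, sub_zero, sgn_rf hne] at h3
  linear_combination (1 / 2 : ℂ) * h3

/-- `exists_dom`, `Alt.coeff_wall` -/
theorem Alt.eq_zero {f : GR n} (hf : Alt f) (h : ∀ ν, SDom ν → f.coeff ν = 0) : f = 0 := by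
  ext ν
  obtain ⟨u, -, hu⟩ := exists_dom ν
  have h1 : f.coeff (act u ν) = 0 := by
    by_cases hs : SDom (act u ν)
    · exact h _ hs
    · exact hf.coeff_wall hu hs
  have h2 := hf u ν
  rw [h1] at h2
  have h3 := sgn_mul_self u
  have : f.coeff ν = 0 := by linear_combination (-f.coeff ν) * h3 - sgn u * h2
  simpa using this

/-- `Alt.eq_zero` for the difference, `coeff_A_sdom` -/
theorem Alt.eq_smul_A {f : GR n} (hf : Alt f) {μ : Wt n} (hμ : SDom μ) (h : ∀ ν, SDom ν → f.coeff ν ≠ 0 → ν = μ) :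
    f = f.coeff μ • A μ := by
  have key : ∀ ν, (f - f.coeff μ • A μ).coeff ν = f.coeff ν - f.coeff μ * (A μ).coeff ν := fun ν => by
    simp [AddMonoidAlgebra.coeff_sub]
  have halt : Alt (f - f.coeff μ • A μ) := fun w ν => by
    rw [key, key, hf w ν, alt_A μ w ν]; ring
  refine sub_eq_zero.1 (halt.eq_zero fun ν hν => ?_)
  rw [key, coeff_A_sdom hμ hν.dom]
  by_cases hμν : μ = ν
  · subst hμν; simp
  · rw [if_neg hμν, mul_zero, sub_zero]
    by_contra h0
    exact hμν (h ν hν h0).symm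

/-- `T (chw wt) = chw wt` for `T` from `exists_mapW w`, so `ex (act w μ) * chw wt = ∑ k, ex (act w (μ + wt k))` -/
theorem A_mul_chw {ι : Type*} [Fintype ι] {wt : ι → Wt n} (h : Sym (chw wt)) (μ : Wt n) : A μ * chw wt = ∑ k, A (μ + wt k) := by
  have key : ∀ w : WG n, ex (act w μ) * chw wt = ∑ k, ex (act w (μ + wt k)) := by
    intro w
    obtain ⟨T, hT, hT'⟩ := exists_mapW w
    have h1 : T (chw wt) = chw wt := by
      ext ν
      have e : ν = act w (act w⁻¹ ν) := by rw [← act_mul, mul_inv_cancel, act_one]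
      rw [e, hT', h w]
    calc ex (act w μ) * chw wt = T (ex μ) * T (chw wt) := by rw [hT, h1]
      _ = T (∑ k, ex (μ + wt k)) := by
        rw [← map_mul, chw, Finset.mul_sum]
        simp only [ex_add]
      _ = _ := by rw [map_sum]; simp only [hT]
  unfold A
  rw [Finset.sum_mul, Finset.sum_comm]
  refine Finset.sum_congr rfl fun w _ => ?_
  rw [smul_mul_assoc, key, Finset.smul_sum]

/-- `coeff_ex_mul`, `sgn_mul_self`, `exists_dual` -/
theorem coeff_A_mul_zero {f : GR n} (hf : Alt f) (μ : Wt n) : (A μ * f).coeff 0 = (Fintype.card (WG n) : ℂ) * f.coeff (dual μ) := by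
  obtain ⟨w0, hw0, hd⟩ := exists_dual n
  have h1 : f.coeff (dual μ) = f.coeff (-μ) := by rw [← hd, hf, hw0, one_mul]
  unfold A
  rw [Finset.sum_mul, AddMonoidAlgebra.coeff_sum, Finsupp.finsetSum_apply, h1]
  rw [Finset.sum_congr rfl (g := fun _ => f.coeff (-μ))]
  · simp
  · intro w _
    rw [smul_mul_assoc, AddMonoidAlgebra.coeff_smul_apply, coeff_ex_mul, zero_sub, ← map_neg, hf, smul_eq_mul, ← mul_assoc,
      sgn_mul_self, one_mul]

end Crest.Agent.R172.W
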