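import Crest.Agent.R172.W.Sl2

/-! R172/W/Cas (owner helper92): weights of the generators, the Casimir operator -/

set_option autoImplicit false
set_option linter.unusedVariables false
set_option linter.unusedSectionVars false
open Matrix Sum Crest.AlgebraR.SpinSaturation

noncomputable section
namespace Crest.Agent.R172.W
variable {n : ℕ}

theorem bt_eq (t : Rt n) : bt t = ev (inl t.1) - ev (l2 t) := by
  obtain ⟨i, j, η⟩ := t
  rcases Int.units_eq_one_or η with rfl | rfl
  · simp [bt, ev, l2]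
  · have : ¬ ((-1 : ℤˣ) = 1) := by decide
    simp [bt, ev, l2, this]

theorem ev_swap (p : L n) : ev p.swap = -ev p := by
  cases p <;> simp [ev]

/-- every pair of letters is diagonal, antidiagonal, or a positive or negative root up to the skew symmetry -/
theorem pair_cases (p q : L n) : p = q ∨ p = q.swap ∨ ∃ t ∈ pr n, (p = inl t.1 ∧ q = l2 t) ∨ (q.swap = inl t.1 ∧ p.swap = l2 t) ∨
    (p = l2 t ∧ q = inl t.1) ∨ (q.swap = l2 t ∧ p.swap = inl t.1) := by
  have hne : ¬ ((-1 : ℤˣ) = 1) := by decide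
  rcases p with i | i <;> rcases q with j | j <;> rcases lt_trichotomy i j with h | rfl | h
  · exact Or.inr (Or.inr ⟨(i, j, 1), mem_pr.2 h, Or.inl ⟨rfl, by simp [l2]⟩⟩)
  · exact Or.inl rfl
  · exact Or.inr (Or.inr ⟨(j, i, 1), mem_pr.2 h, Or.inr (Or.inr (Or.inl ⟨by simp [l2], rfl⟩))⟩)
  · exact Or.inr (Or.inr ⟨(i, j, -1), mem_pr.2 h, Or.inl ⟨rfl, by simp [l2, hne]⟩⟩)
  · exact Or.inr (Or.inl rfl)
  · exact Or.inr (Or.inr ⟨(j, i, -1), mem_pr.2 h, Or.inr (Or.inl ⟨rfl, by simp [l2, hne]⟩)⟩)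
  · exact Or.inr (Or.inr ⟨(i, j, -1), mem_pr.2 h, Or.inr (Or.inr (Or.inr ⟨by simp [l2, hne], rfl⟩))⟩)
  · exact Or.inr (Or.inl rfl)
  · exact Or.inr (Or.inr ⟨(j, i, -1), mem_pr.2 h, Or.inr (Or.inr (Or.inl ⟨by simp [l2, hne], rfl⟩))⟩)
  · exact Or.inr (Or.inr ⟨(i, j, 1), mem_pr.2 h, Or.inr (Or.inr (Or.inr ⟨by simp [l2], rfl⟩))⟩)
  · exact Or.inl rfl
  · exact Or.inr (Or.inr ⟨(j, i, 1), mem_pr.2 h, Or.inr (Or.inl ⟨rfl, by simp [l2]⟩)⟩)

namespace MRep
variable {ι : Type*} [Fintype ι] [DecidableEq ι] (R : MRep n ι)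

/-- `skew` -/
theorem F_anti (p : L n) : R.F p.swap p = 0 := by
  have h := R.skew p.swap p
  rw [Sum.swap_swap] at h
  have h2 : (2 : ℂ) • R.F p.swap p = 0 := by
    rw [two_smul]; nth_rewrite 1 [h]; exact neg_add_cancel _
  exact (smul_eq_zero.1 h2).resolve_left two_ne_zero

/-- `diag`, `skew` -/
theorem F_diag (p : L n) : R.F p p = diagonal fun k => ((ev p ⬝ᵥ R.wt k : ℤ) : ℂ) / 2 := by
  rcases p with i | i
  · rw [R.diag]; congr 1; funext k; simp [ev]
  · rw [R.skew, Sum.swap_inr, R.diag, diagonal_neg]; congr 1; funext k; simp [ev, neg_div]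

/-- `comm (inl i) (inl i) p q`, cases on `p`, `q` -/
theorem H_F (i : Fin n) (p q : L n) :
    R.F (inl i) (inl i) * R.F p q - R.F p q * R.F (inl i) (inl i) = (((ev p - ev q) i : ℤ) : ℂ) • R.F p q := by
  rw [R.comm]
  have h1 : (if inl i = p then R.F (inl i) q else 0) = (if inl i = p then (1 : ℂ) else 0) • R.F p q := by
    split_ifs with h
    · rw [h, one_smul]
    · rw [zero_smul]
  have h2 : (if inl i = q then R.F p (inl i) else 0) = (if inl i = q then (1 : ℂ) else 0) • R.F p q := by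
    split_ifs with h
    · rw [h, one_smul]
    · rw [zero_smul]
  have h3 : (if inl i = q.swap then R.F (inl i) p.swap else 0) = -((if inl i = q.swap then (1 : ℂ) else 0) • R.F p q) := by
    split_ifs with h
    · rw [h, one_smul, R.skew p q, neg_neg]
    · rw [zero_smul, neg_zero]
  have h4 : (if (inl i : L n).swap = p then R.F (inl i : L n).swap q else 0) =
      (if (inl i : L n).swap = p then (1 : ℂ) else 0) • R.F p q := by
    split_ifs with h
    · rw [h, one_smul]
    · rw [zero_smul]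
  rw [h1, h2, h3, h4, sub_neg_eq_add, ← sub_smul, ← add_smul, ← sub_smul]
  congr 1
  rcases p with a | a <;> rcases q with b | b <;>
    simp only [ev, Sum.elim_inl, Sum.elim_inr, Pi.sub_apply, Pi.neg_apply, Pi.single_apply, Sum.swap_inl, Sum.swap_inr,
      Sum.inl.injEq, Sum.inr.injEq, reduceCtorEq, if_false] <;>
    split_ifs <;> norm_num

/-- the entry `(k, l)` of `H_F` -/
theorem F_entry {p q : L n} {k l : ι} (h : R.F p q k l ≠ 0) : R.wt k = R.wt l + 2 • (ev p - ev q) := by
  funext i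
  have h1 := congrFun (congrFun (R.H_F i p q) k) l
  rw [R.diag] at h1
  simp only [Matrix.sub_apply, diagonal_mul, mul_diagonal, Matrix.smul_apply, smul_eq_mul] at h1
  have h2 : ((R.wt k i : ℂ) / 2 - (R.wt l i : ℂ) / 2 - (((ev p - ev q) i : ℤ) : ℂ)) * R.F p q k l = 0 := by
    linear_combination h1
  have h3 := (mul_eq_zero.1 h2).resolve_right h
  have h4 : ((R.wt k i : ℤ) : ℂ) = ((R.wt l i + 2 * (ev p - ev q) i : ℤ) : ℂ) := by
    push_cast at h3 ⊢
    linear_combination 2 * h3
  have h5 := Int.cast_injective h4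
  simp only [Pi.add_apply, Pi.smul_apply, nsmul_eq_mul]
  exact_mod_cast h5

theorem E_entry {t : Rt n} {k l : ι} (h : R.E t k l ≠ 0) : R.wt k = R.wt l + 2 • bt t := by
  rw [bt_eq]; exact R.F_entry h

theorem Fm_entry {t : Rt n} {k l : ι} (h : R.Fm t k l ≠ 0) : R.wt l = R.wt k + 2 • bt t := by
  have h1 := R.F_entry (p := l2 t) (q := inl t.1) h
  rw [bt_eq, h1, add_assoc, ← smul_add]; simp

theorem Cm.entry {R : MRep n ι} {φ : Matrix ι ι ℂ} (hφ : R.Cm φ) {k l : ι} (h : φ k l ≠ 0) : R.wt k = R.wt l := by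
  funext i
  have h1 := congrFun (congrFun (hφ (inl i) (inl i)) k) l
  rw [R.diag] at h1
  simp only [diagonal_mul, mul_diagonal] at h1
  have h2 : ((R.wt k i : ℂ) - (R.wt l i : ℂ)) * φ k l = 0 := by linear_combination 2 * h1
  have h3 := (mul_eq_zero.1 h2).resolve_right h
  exact_mod_cast sub_eq_zero.1 h3

/-- `comm`, `F_diag`, `bt_eq` -/
theorem E_Fm {t : Rt n} (ht : t ∈ pr n) : R.E t * R.Fm t - R.Fm t * R.E t = diagonal fun k => ((bt t ⬝ᵥ R.wt k : ℤ) : ℂ) / 2 := by
  have hlt := mem_pr.1 ht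
  have h2 : ¬ (inl t.1 : L n).swap = l2 t := by
    unfold l2; split_ifs
    · simp
    · simp only [Sum.swap_inl, Sum.inr.injEq]; exact hlt.ne
  unfold E Fm
  rw [R.comm, if_pos rfl, if_pos rfl, if_neg (Ne.symm h2), if_neg h2, sub_zero, sub_zero, R.F_diag, R.F_diag, diagonal_sub, bt_eq]
  congr 1; funext k
  rw [sub_dotProduct]; push_cast; ring

/-- `sl2_sym`, `act_rf`, `sym_of_simple` -/
theorem sym_chw : Sym (chw R.wt) := by
  refine sym_of_simple fun t ht μ => ?_
  have hp := ht.mem_pr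
  have hne : t.1 ≠ t.2.1 := (mem_pr.1 hp).ne
  rw [act_rf hne]
  exact sl2_sym (R.E t) (R.Fm t) R.wt (bt t) (bt_dot_self hne) (fun k l h => R.E_entry h) (fun k l h => R.Fm_entry h)
    (R.E_Fm hp) μ

omit R in
theorem casb_split {M : Type*} [AddCommMonoid M] (g : Fin n → Fin n → M) :
    ∑ i, ∑ j, g i j = ∑ i, g i i + ∑ i, ∑ j, if i < j then g i j + g j i else 0 := by
  have h1 : ∀ i j, g i j = (if i = j then g i j else 0) + ((if i < j then g i j else 0) + (if j < i then g i j else 0)) := by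
    intro i j
    rcases lt_trichotomy i j with h | h | h
    · simp [h, h.ne, h.not_gt]
    · simp [h]
    · simp [h, h.ne', h.not_gt]
  have h2 : ∑ i, ∑ j, (if j < i then g i j else 0) = ∑ i, ∑ j, (if i < j then g j i else 0) := Finset.sum_comm
  have h3 : ∀ i j, (if i < j then g i j + g j i else 0) = (if i < j then g i j else 0) + (if i < j then g j i else 0) := by
    intro i j; split_ifs <;> simp
  calc ∑ i, ∑ j, g i j = ∑ i, ∑ j, ((if i = j then g i j else 0) + ((if i < j then g i j else 0) + (if j < i then g i j else 0))) :=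
        Finset.sum_congr rfl fun i _ => Finset.sum_congr rfl fun j _ => h1 i j
    _ = _ := by
        simp only [Finset.sum_add_distrib, h2, h3, Finset.sum_ite_eq, Finset.mem_univ, if_true]

omit R in
theorem casb_pr {M : Type*} [AddCommMonoid M] (f : Rt n → M) :
    ∑ t ∈ pr n, f t = ∑ i, ∑ j, if i < j then f (i, j, 1) + f (i, j, -1) else 0 := by
  rw [pr, Finset.sum_filter, Fintype.sum_prod_type]
  refine Finset.sum_congr rfl fun i _ => ?_
  rw [Fintype.sum_prod_type]
  refine Finset.sum_congr rfl fun j _ => ?_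
  have hu : (Finset.univ : Finset ℤˣ) = {1, -1} := by decide
  rw [hu, Finset.sum_pair (by decide)]
  split_ifs <;> simp

theorem casb_G (p q : L n) : R.F q.swap p.swap * R.F p.swap q.swap = R.F p q * R.F q p := by
  rw [R.skew p q, R.skew q p, neg_mul_neg]

/-- split the double sum over `Fin n ⊕ Fin n` (`Fintype.sum_sum_type`), then `i < j`, `i = j`, `j < i`; `skew`, `F_anti` -/
theorem two_Cas : (2 : ℂ) • R.Cas = ∑ p, ∑ q, R.F p q * R.F q p := by
  have hRR : ∑ i, ∑ j, R.F (inr i) (inr j) * R.F (inr j) (inr i) = ∑ i, ∑ j, R.F (inl i) (inl j) * R.F (inl j) (inl i) := by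
    rw [Finset.sum_comm]
    exact Finset.sum_congr rfl fun i _ => Finset.sum_congr rfl fun j _ => R.casb_G (inl i) (inl j)
  have hLR : ∀ i j : Fin n, R.F (inl j) (inr i) * R.F (inr i) (inl j) = R.F (inl i) (inr j) * R.F (inr j) (inl i) :=
    fun i j => R.casb_G (inl i) (inr j)
  have hRL : ∀ i j : Fin n, R.F (inr i) (inl j) * R.F (inl j) (inr i) = R.F (inr j) (inl i) * R.F (inl i) (inr j) :=
    fun i j => R.casb_G (inr j) (inl i)
  have z1 : ∀ i : Fin n, R.F (inl i) (inr i) = 0 := fun i => R.F_anti (inr i)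
  have hne : (-1 : ℤˣ) ≠ 1 := by decide
  simp only [Fintype.sum_sum_type, Finset.sum_add_distrib]
  rw [hRR, casb_split fun i j => R.F (inl i) (inl j) * R.F (inl j) (inl i),
    casb_split fun i j => R.F (inl i) (inr j) * R.F (inr j) (inl i),
    casb_split fun i j => R.F (inr i) (inl j) * R.F (inl j) (inr i), Cas, casb_pr]
  simp only [z1, zero_mul, mul_zero, Finset.sum_const_zero, zero_add, E, Fm, l2, if_true, if_neg hne]
  have e : ∑ i : Fin n, ∑ j : Fin n, (if i < j then R.F (inl i) (inl j) * R.F (inl j) (inl i) + R.F (inl j) (inl i) * R.F (inl i) (inl j) +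
        (R.F (inl i) (inr j) * R.F (inr j) (inl i) + R.F (inr j) (inl i) * R.F (inl i) (inr j)) else 0) +
      ∑ i : Fin n, ∑ j : Fin n, (if i < j then R.F (inl i) (inl j) * R.F (inl j) (inl i) + R.F (inl j) (inl i) * R.F (inl i) (inl j) +
        (R.F (inl i) (inr j) * R.F (inr j) (inl i) + R.F (inr j) (inl i) * R.F (inl i) (inr j)) else 0) =
      (∑ i : Fin n, ∑ j : Fin n, (if i < j then R.F (inl i) (inl j) * R.F (inl j) (inl i) + R.F (inl j) (inl i) * R.F (inl i) (inl j) else 0) +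
      ∑ i : Fin n, ∑ j : Fin n, (if i < j then R.F (inl i) (inl j) * R.F (inl j) (inl i) + R.F (inl j) (inl i) * R.F (inl i) (inl j) else 0)) +
      (∑ i : Fin n, ∑ j : Fin n, (if i < j then R.F (inl i) (inr j) * R.F (inr j) (inl i) + R.F (inl j) (inr i) * R.F (inr i) (inl j) else 0) +
      ∑ i : Fin n, ∑ j : Fin n, (if i < j then R.F (inr i) (inl j) * R.F (inl j) (inr i) + R.F (inr j) (inl i) * R.F (inl i) (inr j) else 0)) := by
    simp only [← Finset.sum_add_distrib]
    refine Finset.sum_congr rfl fun i _ => Finset.sum_congr rfl fun j _ => ?_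
    split_ifs
    · rw [hLR i j, hRL i j]; abel
    · simp
  rw [two_smul, add_add_add_comm, e]
  abel

/-- `[F r s, F p q * F q p] = [F r s, F p q] * F q p + F p q * [F r s, F q p]`; expand by `comm`, collapse the sums (`Finset.sum_ite_eq`), reindex by `Sum.swap`, `skew` -/
theorem cm_sum : R.Cm (∑ p, ∑ q, R.F p q * R.F q p) := by
  intro r s
  have key : ∀ p q, R.F r s * (R.F p q * R.F q p) - (R.F p q * R.F q p) * R.F r s =
      (R.F r s * R.F p q - R.F p q * R.F r s) * R.F q p + R.F p q * (R.F r s * R.F q p - R.F q p * R.F r s) := by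
    intro p q; noncomm_ring
  have hsw : ∀ q : L n, (s = q.swap) = (s.swap = q) := fun q => propext
    ⟨fun h => by rw [h, Sum.swap_swap], fun h => by rw [← h, Sum.swap_swap]⟩
  have hsk : ∀ q : L n, R.F q r.swap = -R.F r q.swap := fun q => by rw [R.skew q r.swap, Sum.swap_swap]
  have h1 : ∑ p, ∑ q, (R.F r s * R.F p q - R.F p q * R.F r s) * R.F q p =
      ∑ q, R.F r q * R.F q s - ∑ p, R.F p s * R.F r p - ∑ p, R.F r p.swap * R.F s.swap p - ∑ q, R.F s.swap q * R.F q r.swap := by
    simp only [R.comm, sub_mul, ite_mul, zero_mul, Finset.sum_sub_distrib, hsw]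
    congr 1
    · congr 1
      · congr 1
        · rw [Finset.sum_comm]; simp
        · simp
      · simp
    · rw [Finset.sum_comm]; simp
  have h2 : ∑ p, ∑ q, R.F p q * (R.F r s * R.F q p - R.F q p * R.F r s) =
      ∑ p, R.F p s * R.F r p - ∑ q, R.F r q * R.F q s - ∑ q, R.F s.swap q * R.F r q.swap - ∑ p, R.F p r.swap * R.F s.swap p := by
    simp only [R.comm, mul_sub, mul_ite, mul_zero, Finset.sum_sub_distrib, hsw]
    congr 1
    · congr 1
      · congr 1
        · simp
        · rw [Finset.sum_comm]; simp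
      · rw [Finset.sum_comm]; simp
    · simp
  rw [← sub_eq_zero, Finset.mul_sum, Finset.sum_mul, ← Finset.sum_sub_distrib]
  simp only [Finset.mul_sum, Finset.sum_mul, ← Finset.sum_sub_distrib, key]
  simp only [Finset.sum_add_distrib]
  rw [h1, h2]
  simp only [hsk, mul_neg, neg_mul, Finset.sum_neg_distrib]
  abel

theorem cm_Cas : R.Cm R.Cas := by
  intro p q
  have h := R.cm_sum p q
  rw [← R.two_Cas, Matrix.mul_smul, Matrix.smul_mul] at h
  exact smul_right_injective _ (two_ne_zero (α := ℂ)) h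

theorem Cm.comm_Cas {R : MRep n ι} {φ : Matrix ι ι ℂ} (hφ : R.Cm φ) : R.Cas * φ = φ * R.Cas := by
  have h : ((2 : ℂ) • R.Cas) * φ = φ * ((2 : ℂ) • R.Cas) := by
    rw [R.two_Cas, Finset.sum_mul, Finset.mul_sum]
    refine Finset.sum_congr rfl fun p _ => ?_
    rw [Finset.sum_mul, Finset.mul_sum]
    refine Finset.sum_congr rfl fun q _ => ?_
    rw [mul_assoc, hφ q p, ← mul_assoc, hφ p q, mul_assoc]
  rw [Matrix.mul_smul, Matrix.smul_mul] at h
  exact smul_right_injective _ (two_ne_zero (α := ℂ)) h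

/-- `E_Fm` written with the `F (inl i) (inl i)`: `E t * Fm t - Fm t * E t = ∑ i, bt t i • F (inl i) (inl i)` -/
theorem E_Fm' {t : Rt n} (ht : t ∈ pr n) : R.E t * R.Fm t - R.Fm t * R.E t = ∑ i, ((bt t i : ℤ) : ℂ) • R.F (inl i) (inl i) := by
  rw [R.E_Fm ht]
  ext k l
  simp only [R.diag, Matrix.sum_apply, Matrix.smul_apply, diagonal_apply, smul_eq_mul]
  split_ifs with h
  · simp only [dotProduct]; push_cast; rw [Finset.sum_div]
    exact Finset.sum_congr rfl fun i _ => by ring
  · simp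

/-- the representation twisted by `p ↦ p.swap` -/
def bar : MRep n ι where
  F p q := R.F p.swap q.swap
  wt k := -R.wt k
  skew := fun p q => R.skew p.swap q.swap
  comm := fun p q r s => by
    have h := R.comm p.swap q.swap r.swap s.swap
    have inj : ∀ a b : L n, a.swap = b.swap ↔ a = b := fun a b => Sum.swap_leftInverse.injective.eq_iff
    simp only [inj] at h
    exact h
  diag := fun i => by
    have h := R.skew (inr i) (inr i)
    rw [Sum.swap_inl, h, Sum.swap_inr, R.diag, Matrix.diagonal_neg]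
    congr 1
    funext k
    simp [neg_div]

/-- `two_Cas`, reindex -/
theorem bar_Cas : R.bar.Cas = R.Cas := by
  refine smul_right_injective _ (two_ne_zero (α := ℂ)) ?_
  show (2 : ℂ) • R.bar.Cas = (2 : ℂ) • R.Cas
  rw [two_Cas, two_Cas, Finset.sum_comm]
  exact Finset.sum_congr rfl fun p _ => Finset.sum_congr rfl fun q _ => R.casb_G p q

theorem Cm.bar {R : MRep n ι} {φ : Matrix ι ι ℂ} (hφ : R.Cm φ) : R.bar.Cm φ := by
  exact fun p q => hφ p.swap q.swap

end MRep

end Crest.Agent.R172.W
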