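import Crest.Agent.R172.Defs

/-! # R172/W: definitions for the Weyl character formula of `so(2n)` (owner helper92; FROZEN).
Weights are DOUBLED (`Fin n → ℤ`).  A positive root is a triple `t = (i, j, η)`, `i < j`, `η = ±1`, standing for `ε_i - η ε_j`;
`bt t` is HALF of its doubled coordinate vector. -/

set_option autoImplicit false
set_option linter.unusedVariables false
set_option linter.unusedSectionVars false
open Matrix Sum Crest.AlgebraR.SpinSaturation

noncomputable section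
namespace Crest.Agent.R172.W

/-- doubled weights -/
abbrev Wt (n : ℕ) : Type := Fin n → ℤ
/-- the group ring of the weight lattice -/
abbrev GR (n : ℕ) : Type := AddMonoidAlgebra ℂ (Wt n)
/-- the letters `± ε_i` -/
abbrev L (n : ℕ) : Type := Fin n ⊕ Fin n
/-- root triples -/
abbrev Rt (n : ℕ) : Type := Fin n × Fin n × ℤˣ

variable {n : ℕ}

/-- the monomial `e^μ` -/
def ex (μ : Wt n) : GR n := AddMonoidAlgebra.single μ 1
/-- the character of a family of weights -/
def chw {ι : Type*} [Fintype ι] (wt : ι → Wt n) : GR n := ∑ k, ex (wt k)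
/-- the doubled Weyl vector -/
def rho (n : ℕ) : Wt n := fun i => 2 * ((n : ℤ) - 1 - (i : ℕ))
/-- dominant -/
def Dom (μ : Wt n) : Prop := ∀ i j, i < j → |μ j| ≤ μ i
/-- strictly dominant -/
def SDom (μ : Wt n) : Prop := ∀ i j, i < j → |μ j| < μ i
/-- the dominance order (dual cone form) -/
def Le (μ ν : Wt n) : Prop := ∀ κ, Dom κ → κ ⬝ᵥ μ ≤ κ ⬝ᵥ ν
/-- the positive roots -/
def pr (n : ℕ) : Finset (Rt n) := Finset.univ.filter fun t => t.1 < t.2.1
/-- the simple roots -/
def IsSimple (t : Rt n) : Prop := (t.2.1 : ℕ) = t.1 + 1 ∧ (t.2.2 = 1 ∨ (t.2.1 : ℕ) + 1 = n)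
/-- half of the doubled root -/
def bt (t : Rt n) : Wt n := Pi.single t.1 1 - (t.2.2 : ℤ) • Pi.single t.2.1 1
/-- the Weyl denominator -/
def dl (n : ℕ) : GR n := ∏ t ∈ pr n, (ex (bt t) - ex (-bt t))

/-- the Weyl group of `D_n`: permutations with an even number of sign changes -/
@[ext] structure WG (n : ℕ) where
  σ : Equiv.Perm (Fin n)
  ε : Fin n → ℤˣ
  h : ∏ i, ε i = 1

instance : Group (WG n) where
  mul w w' := ⟨w.σ * w'.σ, fun i => w.ε i * w'.ε (w.σ⁻¹ i), by
    rw [Finset.prod_mul_distrib, w.h, one_mul, Equiv.prod_comp w.σ⁻¹ w'.ε, w'.h]⟩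
  one := ⟨1, 1, by simp⟩
  inv w := ⟨w.σ⁻¹, fun i => w.ε (w.σ i), by rw [Equiv.prod_comp w.σ w.ε, w.h]⟩
  mul_assoc a b c := WG.ext (mul_assoc _ _ _) (funext fun i => mul_assoc _ _ _)
  one_mul a := WG.ext (one_mul _) (funext fun i => one_mul _)
  mul_one a := WG.ext (mul_one _) (funext fun i => mul_one _)
  inv_mul_cancel a := WG.ext (inv_mul_cancel _) (funext fun i => Int.units_mul_self _)

@[simp] theorem WG.mul_σ (w w' : WG n) : (w * w').σ = w.σ * w'.σ := rfl
@[simp] theorem WG.mul_ε (w w' : WG n) (i : Fin n) : (w * w').ε i = w.ε i * w'.ε (w.σ⁻¹ i) := rfl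
@[simp] theorem WG.one_σ : (1 : WG n).σ = 1 := rfl
@[simp] theorem WG.one_ε (i : Fin n) : (1 : WG n).ε i = 1 := rfl
@[simp] theorem WG.inv_σ (w : WG n) : w⁻¹.σ = w.σ⁻¹ := rfl
@[simp] theorem WG.inv_ε (w : WG n) (i : Fin n) : w⁻¹.ε i = w.ε (w.σ i) := rfl

instance : Finite (WG n) :=
  Finite.of_injective (fun w : WG n => (w.σ, w.ε)) fun a b h => WG.ext (congrArg Prod.fst h) (congrArg Prod.snd h)
instance : Fintype (WG n) := Fintype.ofFinite _

/-- the action on weights -/
def act (w : WG n) : Wt n →+ Wt n where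
  toFun μ i := (w.ε i : ℤ) * μ (w.σ⁻¹ i)
  map_zero' := funext fun i => mul_zero _
  map_add' μ ν := funext fun i => mul_add _ _ _

theorem act_apply (w : WG n) (μ : Wt n) (i : Fin n) : act w μ i = (w.ε i : ℤ) * μ (w.σ⁻¹ i) := rfl
@[simp] theorem act_one (μ : Wt n) : act 1 μ = μ := funext fun i => one_mul _
theorem act_mul (w w' : WG n) (μ : Wt n) : act (w * w') μ = act w (act w' μ) := funext fun i => by
  simp only [act_apply, WG.mul_ε, WG.mul_σ, Units.val_mul, mul_assoc, _root_.mul_inv_rev, Equiv.Perm.mul_apply]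

/-- the sign character -/
def sgn (w : WG n) : ℂ := ((Equiv.Perm.sign w.σ : ℤ) : ℂ)
@[simp] theorem sgn_one : sgn (1 : WG n) = 1 := by simp [sgn]
theorem sgn_mul (w w' : WG n) : sgn (w * w') = sgn w * sgn w' := by simp [sgn]
theorem sgn_inv (w : WG n) : sgn w⁻¹ = sgn w := by simp [sgn]
theorem sgn_mul_self (w : WG n) : sgn w * sgn w = 1 := by
  rw [← sgn_inv w, ← sgn_one (n := n), ← inv_mul_cancel w, sgn_mul, sgn_inv]

/-- the reflection in a root -/
def rf (t : Rt n) : WG n := ⟨Equiv.swap t.1 t.2.1, Pi.mulSingle t.1 t.2.2 * Pi.mulSingle t.2.1 t.2.2, by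
  simp [Finset.prod_mul_distrib, Finset.prod_pi_mulSingle']⟩

/-- the alternating sum `A_μ` -/
def A (μ : Wt n) : GR n := ∑ w : WG n, sgn w • ex (act w μ)
/-- alternating elements -/
def Alt (f : GR n) : Prop := ∀ w μ, f.coeff (act w μ) = sgn w * f.coeff μ
/-- symmetric elements -/
def Sym (f : GR n) : Prop := ∀ w μ, f.coeff (act w μ) = f.coeff μ

/-- multiplication of the coefficients by a function -/
def mulC (g : Wt n → ℂ) : GR n →ₗ[ℂ] GR n where
  toFun f := .ofCoeff (Finsupp.onFinset f.coeff.support (fun μ => g μ * f.coeff μ) fun μ h =>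
    Finsupp.mem_support_iff.2 (right_ne_zero_of_mul h))
  map_add' f f' := by ext μ; simp [mul_add]
  map_smul' c f := by ext μ; simp [mul_left_comm]
@[simp] theorem coeff_mulC (g : Wt n → ℂ) (f : GR n) (μ : Wt n) : (mulC g f).coeff μ = g μ * f.coeff μ := rfl
/-- directional derivative -/
def Dv (β : Wt n) : GR n →ₗ[ℂ] GR n := mulC fun μ => ((β ⬝ᵥ μ : ℤ) : ℂ)
/-- Laplacian -/
def Lap : GR n →ₗ[ℂ] GR n := mulC fun μ => ((μ ⬝ᵥ μ : ℤ) : ℂ)

/-- half of the doubled weight `2 (± ε_i)` of a letter -/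
def ev : L n → Wt n := Sum.elim (fun i => Pi.single i 1) fun i => -Pi.single i 1
/-- the second letter of a root triple (`bt t = ev (inl t.1) - ev (l2 t)`) -/
def l2 (t : Rt n) : L n := if t.2.2 = 1 then inl t.2.1 else inr t.2.1

/-- matrix representations of `so(2n)` with diagonal Cartan subalgebra; `F p q` represents `E_{p q} - E_{q' p'}`, `p' = p.swap` -/
structure MRep (n : ℕ) (ι : Type*) [Fintype ι] [DecidableEq ι] where
  F : L n → L n → Matrix ι ι ℂ
  wt : ι → Wt n
  skew : ∀ p q, F p q = -F q.swap p.swap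
  comm : ∀ p q r s, F p q * F r s - F r s * F p q = (if q = r then F p s else 0) - (if p = s then F r q else 0) -
    (if q = s.swap then F p r.swap else 0) - (if p.swap = r then F q.swap s else 0)
  diag : ∀ i, F (inl i) (inl i) = diagonal fun k => (wt k i : ℂ) / 2

/-- the Casimir eigenvalue -/
def cas (a : Wt n) : ℂ := ((a ⬝ᵥ a + 2 * (a ⬝ᵥ rho n) : ℤ) : ℂ) / 4

namespace MRep
variable {ι : Type*} [Fintype ι] [DecidableEq ι] (R : MRep n ι)

/-- positive root vectors -/
def E (t : Rt n) : Matrix ι ι ℂ := R.F (inl t.1) (l2 t)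
/-- negative root vectors -/
def Fm (t : Rt n) : Matrix ι ι ℂ := R.F (l2 t) (inl t.1)
/-- the Casimir operator -/
def Cas : Matrix ι ι ℂ := ∑ i, R.F (inl i) (inl i) * R.F (inl i) (inl i) + ∑ t ∈ pr n, (R.E t * R.Fm t + R.Fm t * R.E t)
/-- endomorphisms of the representation -/
def Cm (φ : Matrix ι ι ℂ) : Prop := ∀ p q, R.F p q * φ = φ * R.F p q
/-- the graded trace -/
def gtr (φ : Matrix ι ι ℂ) : GR n := ∑ k, φ k k • ex (R.wt k)
/-- highest weight vectors -/
structure HW (a : Wt n) (v : ι → ℂ) : Prop where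
  ne : v ≠ 0
  H : ∀ i, R.F (inl i) (inl i) *ᵥ v = ((a i : ℂ) / 2) • v
  E : ∀ t ∈ pr n, R.E t *ᵥ v = 0
end MRep

/-- `E_{p q} - E_{q' p'}` as a matrix -/
def Xm (p q : L n) : Matrix (L n) (L n) ℂ := Matrix.single p q 1 - Matrix.single q.swap p.swap 1

end Crest.Agent.R172.W
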