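import Crest.Agent.R172.W.Alt

/-! R172/W/Dl (owner helper92): the Weyl denominator -/

set_option autoImplicit false
set_option linter.unusedVariables false
set_option linter.unusedSectionVars false
open Matrix Sum Crest.AlgebraR.SpinSaturation

noncomputable section
namespace Crest.Agent.R172.W
variable {n : ℕ}

theorem dla_pr_eq (n : ℕ) : pr n = ((Finset.univ : Finset (Fin n)).sigma fun i => Finset.Ioi i ×ˢ (Finset.univ : Finset ℤˣ)).map
    (Equiv.sigmaEquivProd (Fin n) (Fin n × ℤˣ)).toEmbedding := by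
  ext ⟨i, j, η⟩
  simp [pr, Finset.mem_map_equiv, Int.units_eq_one_or η]

theorem dla_prod {M : Type*} [CommMonoid M] (f : Rt n → M) :
    ∏ t ∈ pr n, f t = ∏ i : Fin n, ∏ j ∈ Finset.Ioi i, (f (i, j, 1) * f (i, j, -1)) := by
  rw [dla_pr_eq, Finset.prod_map, Finset.prod_sigma]
  refine Finset.prod_congr rfl fun i _ => ?_
  rw [Finset.prod_product]
  refine Finset.prod_congr rfl fun j _ => ?_
  rw [UnitsInt.univ, Finset.prod_pair (by decide)]
  rfl

theorem dla_sum {M : Type*} [AddCommMonoid M] (f : Rt n → M) :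
    ∑ t ∈ pr n, f t = ∑ i : Fin n, ∑ j ∈ Finset.Ioi i, (f (i, j, 1) + f (i, j, -1)) :=
  dla_prod (M := Multiplicative M) f

theorem dla_two (i : Fin n) : (Pi.single i 2 : Wt n) = Pi.single i 1 + Pi.single i 1 := by
  rw [← Pi.single_add]; rfl

/-- `(ex (bt (i,j,1)) - ex (-_)) * (ex (bt (i,j,-1)) - ex (-_)) = y i - y j`; `Finset.prod_filter`/`Finset.prod_product`, `Int.units` has two elements (`UnitsInt.univ`) -/
theorem dl_eq : dl n = ∏ i : Fin n, ∏ j ∈ Finset.Ioi i,
    ((ex (Pi.single i 2) + ex (-Pi.single i 2)) - (ex (Pi.single j 2) + ex (-Pi.single j 2))) := by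
  rw [dl, dla_prod]
  refine Finset.prod_congr rfl fun i _ => Finset.prod_congr rfl fun j _ => ?_
  have key : ∀ a b : Wt n, (ex (a - b) - ex (-(a - b))) * (ex (a + b) - ex (-(a + b))) =
      (ex (a + a) + ex (-(a + a))) - (ex (b + b) + ex (-(b + b))) := by
    intro a b
    rw [sub_mul, mul_sub, mul_sub, ← ex_add, ← ex_add, ← ex_add, ← ex_add,
      show a - b + (a + b) = a + a by abel, show a - b + -(a + b) = -(b + b) by abel,
      show -(a - b) + (a + b) = b + b by abel, show -(a - b) + -(a + b) = -(a + a) by abel]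
    ring
  rw [dla_two i, dla_two j, ← key]
  simp [bt]

theorem dla_act_single (w : WG n) (i : Fin n) (c : ℤ) :
    act w (Pi.single i c) = (w.ε (w.σ i) : ℤ) • (Pi.single (w.σ i) c : Wt n) := by
  funext k
  rw [act_apply]
  by_cases h : k = w.σ i
  · subst h; simp
  · have : w.σ⁻¹ k ≠ i := fun e => h (by rw [← e]; simp)
    rw [Pi.single_eq_of_ne this]
    simp [Pi.single_eq_of_ne h]

/-- `T` from `exists_mapW w` sends `y i` to `y (σ i)`; `Equiv.Perm.prod_Ioi_comp_eq_sign_mul_prod` -/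
theorem alt_dl : Alt (dl n) := by
  intro w μ
  obtain ⟨T, hT, hT'⟩ := exists_mapW w⁻¹
  have hy : ∀ i : Fin n, T (ex (Pi.single i 2) + ex (-Pi.single i 2)) =
      ex (Pi.single (w⁻¹.σ i) 2) + ex (-Pi.single (w⁻¹.σ i) 2) := by
    intro i
    rw [map_add, hT, hT, map_neg, dla_act_single]
    rcases Int.units_eq_one_or (w⁻¹.ε (w⁻¹.σ i)) with h | h <;> rw [h]
    · simp
    · simp [add_comm]
  have h1 : T (dl n) = sgn w • dl n := by
    rw [dl_eq, map_prod]
    simp only [map_prod, map_sub, hy]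
    rw [Equiv.Perm.prod_Ioi_comp_eq_sign_mul_prod w⁻¹.σ (f := fun i j : Fin n =>
      ((ex (Pi.single i 2) + ex (-Pi.single i 2)) - (ex (Pi.single j 2) + ex (-Pi.single j 2)) : GR n))
      (fun i j => by ring), ← sgn_inv, sgn, Int.cast_smul_eq_zsmul, zsmul_eq_mul]
  have h2 := hT' (dl n) (act w μ)
  rw [← act_mul, inv_mul_cancel, act_one, h1] at h2
  rw [← h2]
  simp

/-- the group ring has no zero divisors; `bt t ≠ -bt t` -/
theorem dl_ne_zero : dl n ≠ 0 := by
  refine Finset.prod_ne_zero_iff.2 fun t ht h => ?_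
  have hne : t.1 ≠ t.2.1 := (mem_pr.1 ht).ne
  have h1 : -bt t ≠ bt t := fun e => by
    have h2 := bt_dot_self hne
    have h3 := h2
    nth_rewrite 1 [← e] at h3
    rw [neg_dotProduct, h2] at h3
    omega
  have h4 : (ex (bt t)).coeff (bt t) = (ex (-bt t)).coeff (bt t) := by rw [sub_eq_zero.1 h]
  rw [coeff_ex, coeff_ex, if_pos rfl, if_neg h1] at h4
  exact one_ne_zero h4

/-- `∑ t ∈ pr n, bt t = rho n`: the two roots over a pair `i < j` add up to `2 • single i 1`, and `card (Ioi i) = n - 1 - i` -/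
theorem sum_bt : ∑ t ∈ pr n, bt t = rho n := by
  rw [dla_sum]
  have h : ∀ i j : Fin n, bt (i, j, 1) + bt (i, j, -1) = Pi.single i 2 := fun i j => by
    rw [dla_two]; simp [bt]
  simp only [h, Finset.sum_const, Fin.card_Ioi]
  funext k
  rw [Finset.sum_apply, Finset.sum_eq_single k (fun i _ hi => by simp [Pi.single_eq_of_ne hi.symm]) (by simp)]
  have := k.2
  simp only [Pi.smul_apply, Pi.single_eq_same, nsmul_eq_mul, rho]
  rw [Nat.cast_sub (by omega), Nat.cast_sub (by omega)]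
  push_cast
  ring

theorem Dlb_supp (s : Finset (Rt n)) (hs : s ⊆ pr n) (ν : Wt n)
    (h : (∏ t ∈ s, (ex (bt t) - ex (-bt t))).coeff ν ≠ 0) :
    Le ν (∑ t ∈ s, bt t) ∧ ∀ i, Even (ν i - (∑ t ∈ s, bt t) i) := by
  classical
  induction s using Finset.induction_on generalizing ν with
  | empty =>
    rw [Finset.prod_empty, ← ex_zero, coeff_ex] at h
    have h0 : (0 : Wt n) = ν := by
      by_contra h1
      exact h (if_neg h1)
    subst h0
    exact ⟨fun κ _ => by simp, fun i => by simp⟩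
  | insert t s ht ih =>
    have hs' : s ⊆ pr n := fun x hx => hs (Finset.mem_insert_of_mem hx)
    have htp : t ∈ pr n := hs (Finset.mem_insert_self _ _)
    rw [Finset.prod_insert ht, sub_mul] at h
    rw [Finset.sum_insert ht]
    have hc : (ex (bt t) * ∏ t ∈ s, (ex (bt t) - ex (-bt t)) - ex (-bt t) * ∏ t ∈ s, (ex (bt t) - ex (-bt t))).coeff ν
        = (∏ t ∈ s, (ex (bt t) - ex (-bt t))).coeff (ν - bt t) - (∏ t ∈ s, (ex (bt t) - ex (-bt t))).coeff (ν - -bt t) := by
      rw [← coeff_ex_mul, ← coeff_ex_mul]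
      simp
    rw [hc] at h
    by_cases h1 : (∏ t ∈ s, (ex (bt t) - ex (-bt t))).coeff (ν - bt t) = 0
    · have h2 : (∏ t ∈ s, (ex (bt t) - ex (-bt t))).coeff (ν - -bt t) ≠ 0 := by
        intro h2
        exact h (by rw [h1, h2, sub_zero])
      obtain ⟨a1, a2⟩ := ih hs' _ h2
      refine ⟨fun κ hκ => ?_, fun i => ?_⟩
      · have b1 := a1 κ hκ
        have b2 := dom_iff.1 hκ t htp
        rw [dotProduct_comm] at b2
        rw [dotProduct_sub, dotProduct_neg] at b1
        rw [dotProduct_add]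
        linarith
      · obtain ⟨c, hc⟩ := a2 i
        refine ⟨c - bt t i, ?_⟩
        simp only [Pi.sub_apply, Pi.neg_apply, Pi.add_apply] at hc ⊢
        linarith
    · obtain ⟨a1, a2⟩ := ih hs' _ h1
      refine ⟨fun κ hκ => ?_, fun i => ?_⟩
      · have b1 := a1 κ hκ
        rw [dotProduct_sub] at b1
        rw [dotProduct_add]
        linarith
      · obtain ⟨c, hc⟩ := a2 i
        refine ⟨c, ?_⟩
        simp only [Pi.sub_apply, Pi.add_apply] at hc ⊢
        linarith

/-- induction over `s ⊆ pr n`: every `ν` in the support of `∏ t ∈ s, …` has `Le ν (∑ t ∈ s, bt t)` and `ν - ∑ t ∈ s, bt t` is even (`coeff_ex_mul`, `dom_iff`) -/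
theorem supp_dl {ν : Wt n} (h : (dl n).coeff ν ≠ 0) : Le ν (rho n) ∧ ∀ i, Even (ν i) := by
  have key := Dlb_supp (pr n) (Finset.Subset.refl _) ν h
  rw [sum_bt] at key
  refine ⟨key.1, fun i => ?_⟩
  have h2 : Even (rho n i) := ⟨(n : ℤ) - 1 - (i : ℕ), by unfold rho; ring⟩
  have h3 := (key.2 i).add h2
  simpa using h3

/-- downward induction: `rho n i ≤ ν i` for `i < n - 1`, so `rho ⬝ᵥ rho ≤ rho ⬝ᵥ ν`; `Le` at `κ = ν` and `κ = rho` gives `(ν - rho) ⬝ᵥ (ν - rho) ≤ 0` -/
theorem eq_rho {ν : Wt n} (h : SDom ν) (hl : Le ν (rho n)) (he : ∀ i, Even (ν i)) : ν = rho n := by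
  have k1 : ∀ d : ℕ, ∀ i : Fin n, (i : ℕ) + d + 1 = n → 2 * (d : ℤ) ≤ |ν i| ∧ (d ≠ 0 → 2 * (d : ℤ) ≤ ν i) := by
    intro d
    induction d with
    | zero => intro i hi; exact ⟨by simp, fun h => absurd rfl h⟩
    | succ d ih =>
      intro i hi
      have hj : (i : ℕ) + 1 < n := by omega
      have a1 := (ih ⟨i + 1, hj⟩ (by simp only; omega)).1
      have a2 := h i ⟨i + 1, hj⟩ (by rw [Fin.lt_def]; simp)
      obtain ⟨c, hc⟩ := he i
      have a3 : 2 * ((d + 1 : ℕ) : ℤ) ≤ ν i := by push_cast; omega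
      exact ⟨a3.trans (le_abs_self _), fun _ => a3⟩
  have k2 : rho n ⬝ᵥ rho n ≤ rho n ⬝ᵥ ν := by
    refine Finset.sum_le_sum fun i _ => ?_
    have hi := i.2
    obtain ⟨d, hd⟩ : ∃ d : ℕ, (i : ℕ) + d + 1 = n := ⟨n - 1 - i, by omega⟩
    have e : rho n i = 2 * (d : ℤ) := by
      unfold rho
      have : (n : ℤ) = ((i : ℕ) : ℤ) + d + 1 := by exact_mod_cast hd.symm
      linarith
    rw [e]
    by_cases h0 : d = 0
    · simp [h0]
    · exact mul_le_mul_of_nonneg_left ((k1 d i hd).2 h0) (by positivity)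
  have k3 := hl ν h.dom
  have k4 : (ν - rho n) ⬝ᵥ (ν - rho n) ≤ 0 := by
    rw [sub_dotProduct, dotProduct_sub, dotProduct_sub]
    linarith
  have k5 : (ν - rho n) ⬝ᵥ (ν - rho n) = 0 :=
    le_antisymm k4 (Finset.sum_nonneg fun i _ => mul_self_nonneg _)
  exact sub_eq_zero.1 (dotProduct_self_eq_zero.1 k5)

/-- `Alt.eq_smul_A` -/
theorem dl_eq_A (n : ℕ) : (dl n).coeff (rho n) ≠ 0 ∧ dl n = (dl n).coeff (rho n) • A (rho n) := by
  have e := Alt.eq_smul_A (alt_dl (n := n)) sdom_rho fun ν h1 h2 => eq_rho h1 (supp_dl h2).1 (supp_dl h2).2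
  refine ⟨fun h0 => ?_, e⟩
  rw [h0, zero_smul] at e
  exact dl_ne_zero e

theorem Dlb_Lap_ex (μ : Wt n) : Lap (ex μ) = ((μ ⬝ᵥ μ : ℤ) : ℂ) • ex μ := by
  ext ν
  have e : (((μ ⬝ᵥ μ : ℤ) : ℂ) • ex μ).coeff ν = ((μ ⬝ᵥ μ : ℤ) : ℂ) * (ex μ).coeff ν := by simp
  rw [e]
  unfold Lap
  rw [coeff_mulC, coeff_ex]
  split_ifs with h
  · rw [h]
  · simp

/-- `act_dot` -/
theorem Lap_A (μ : Wt n) : Lap (A μ) = ((μ ⬝ᵥ μ : ℤ) : ℂ) • A μ := by
  unfold A
  rw [map_sum, Finset.smul_sum]
  refine Finset.sum_congr rfl fun w _ => ?_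
  rw [map_smul, Dlb_Lap_ex, act_dot, smul_comm]

theorem Lap_dl : Lap (dl n) = ((rho n ⬝ᵥ rho n : ℤ) : ℂ) • dl n := by
  have e := (dl_eq_A n).2
  generalize (dl n).coeff (rho n) = c at e
  rw [e, map_smul, Lap_A, smul_comm]

theorem dlc_mulC_ex (g : Wt n → ℂ) (μ : Wt n) : mulC g (ex μ) = g μ • ex μ := by
  ext ν
  by_cases h : μ = ν
  · subst h
    simp [ex]
  · simp [ex, h]

theorem dlc_ind {P : GR n → Prop} (h0 : P 0) (hadd : ∀ f g, P f → P g → P (f + g)) (hs : ∀ (c : ℂ) μ, P (c • ex μ))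
    (f : GR n) : P f := by
  induction f using AddMonoidAlgebra.induction_linear with
  | zero => exact h0
  | add f g hf hg => exact hadd f g hf hg
  | single μ c => simpa [ex] using hs c μ

theorem dlc_ex_mul (μ ν : Wt n) : ex μ * ex ν = ex (μ + ν) := by
  simp [ex, AddMonoidAlgebra.single_mul_single]

theorem Dv_mul (β : Wt n) (f g : GR n) : Dv β (f * g) = Dv β f * g + f * Dv β g := by
  induction f using dlc_ind with
  | h0 => simp
  | hadd f f' h h' => simp only [add_mul, map_add, h, h']; ring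
  | hs c μ =>
    induction g using dlc_ind with
    | h0 => simp
    | hadd g g' h h' => simp only [mul_add, map_add, h, h']; ring
    | hs d ν =>
      simp only [smul_mul_assoc, mul_smul_comm, map_smul, dlc_ex_mul, Dv, dlc_mulC_ex, dotProduct_add, Int.cast_add,
        add_smul, smul_add]
      module

theorem Dv_ex (β μ : Wt n) : Dv β (ex μ) = ((β ⬝ᵥ μ : ℤ) : ℂ) • ex μ := dlc_mulC_ex _ _

theorem Lap_mul (f g : GR n) :
    Lap (f * g) = Lap f * g + 2 * ∑ i, Dv (Pi.single i 1) f * Dv (Pi.single i 1) g + f * Lap g := by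
  induction f using dlc_ind with
  | h0 => simp
  | hadd f f' h h' => simp only [add_mul, map_add, h, h', Finset.sum_add_distrib]; ring
  | hs c μ =>
    induction g using dlc_ind with
    | h0 => simp
    | hadd g g' h h' => simp only [mul_add, map_add, h, h', Finset.sum_add_distrib]; ring
    | hs d ν =>
      have e : ∑ i, Dv (Pi.single i 1) (c • ex μ) * Dv (Pi.single i 1) (d • ex ν) =
          (c * d * ((μ ⬝ᵥ ν : ℤ) : ℂ)) • ex (μ + ν) := by
        simp only [map_smul, Dv_ex, smul_mul_assoc, mul_smul_comm, dlc_ex_mul, smul_smul, single_one_dotProduct,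
          ← Finset.sum_smul]
        simp only [dotProduct, Int.cast_sum, Finset.mul_sum, Int.cast_mul]
        congr 1
        exact Finset.sum_congr rfl fun i _ => by ring
      rw [e, two_mul]
      simp only [smul_mul_assoc, mul_smul_comm, map_smul, dlc_ex_mul, Lap, dlc_mulC_ex, dotProduct_add, add_dotProduct,
        Int.cast_add, dotProduct_comm ν μ]
      module

theorem dlc_sum_Dv (β : Wt n) (g : GR n) : ∑ i, (β i : ℂ) • Dv (Pi.single i 1) g = Dv β g := by
  ext μ
  simp [Dv, dotProduct, Finset.sum_mul, mul_assoc, Pi.single_apply]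

theorem dlc_Dv_prod (β : Wt n) (s : Finset (Rt n)) (F : Rt n → GR n) :
    Dv β (∏ t ∈ s, F t) = ∑ t ∈ s, (∏ u ∈ s.erase t, F u) * Dv β (F t) := by
  classical
  induction s using Finset.induction_on with
  | empty => simpa [ex, AddMonoidAlgebra.one_def] using Dv_ex β (0 : Wt n)
  | insert a s ha ih =>
    rw [Finset.prod_insert ha, Dv_mul, ih, Finset.sum_insert ha, Finset.erase_insert ha, mul_comm (Dv β _), Finset.mul_sum]
    congr 1
    refine Finset.sum_congr rfl fun t ht => ?_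
    rw [Finset.erase_insert_of_ne (by rintro rfl; exact ha ht), Finset.prod_insert (by simp [ha]), mul_assoc]

theorem grad_dl (g : GR n) : ∑ i, Dv (Pi.single i 1) (dl n) * Dv (Pi.single i 1) g =
    ∑ t ∈ pr n, (∏ s ∈ (pr n).erase t, (ex (bt s) - ex (-bt s))) * ((ex (bt t) + ex (-bt t)) * Dv (bt t) g) := by
  simp only [dl, dlc_Dv_prod, Finset.sum_mul]
  rw [Finset.sum_comm]
  refine Finset.sum_congr rfl fun t _ => ?_
  rw [← dlc_sum_Dv (bt t) g, Finset.mul_sum, Finset.mul_sum]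
  refine Finset.sum_congr rfl fun i _ => ?_
  simp only [map_sub, Dv_ex, single_one_dotProduct, Pi.neg_apply, Int.cast_neg, neg_smul, sub_neg_eq_add, ← smul_add,
    mul_assoc, smul_mul_assoc, mul_smul_comm]

end Crest.Agent.R172.W
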