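import Crest.Agent.R172.W.Defs

/-! R172/W/Grp (owner helper92): the Weyl group of `D_n` -/

set_option autoImplicit false
set_option linter.unusedVariables false
set_option linter.unusedSectionVars false
open Matrix Sum Crest.AlgebraR.SpinSaturation

noncomputable section
namespace Crest.Agent.R172.W
variable {n : ℕ}

/-- `Equiv.Perm.sign_swap` -/
theorem sgn_rf {t : Rt n} (ht : t.1 ≠ t.2.1) : sgn (rf t) = -1 := by
  simp [sgn, rf, Equiv.Perm.sign_swap ht]

theorem grpa_bt_dot (t : Rt n) (μ : Wt n) : bt t ⬝ᵥ μ = μ t.1 - (t.2.2 : ℤ) * μ t.2.1 := by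
  rw [bt, sub_dotProduct, smul_dotProduct, single_dotProduct, single_dotProduct, one_mul, one_mul, smul_eq_mul]

/-- `funext k`; cases `k = i`, `k = j`, else; `η = ±1` (`Int.units_eq_one_or`) -/
theorem act_rf {t : Rt n} (ht : t.1 ≠ t.2.1) (μ : Wt n) : act (rf t) μ = μ - (bt t ⬝ᵥ μ) • bt t := by
  rw [grpa_bt_dot]
  obtain ⟨i, j, η⟩ := t
  simp only at ht
  funext k
  have hη : (η : ℤ) * η = 1 := Int.units_coe_mul_self η
  by_cases hi : k = i
  · subst hi
    simp [act_apply, rf, bt, ht]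
  · by_cases hj : k = j
    · subst hj
      simp only [act_apply, rf, bt, Equiv.swap_inv, Equiv.swap_apply_right, Pi.mul_apply, Pi.sub_apply, Pi.smul_apply,
        Pi.mulSingle_eq_same, Pi.mulSingle_eq_of_ne hi, Pi.single_eq_same, Pi.single_eq_of_ne hi, smul_eq_mul, one_mul]
      linear_combination (μ k) * hη
    · simp [act_apply, rf, bt, hi, hj, Equiv.swap_apply_of_ne_of_ne hi hj]

theorem bt_dot (t : Rt n) (μ : Wt n) : bt t ⬝ᵥ μ = μ t.1 - (t.2.2 : ℤ) * μ t.2.1 := by
  exact grpa_bt_dot t μ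

theorem bt_dot_self {t : Rt n} (ht : t.1 ≠ t.2.1) : bt t ⬝ᵥ bt t = 2 := by
  rw [bt_dot]
  have hη : (t.2.2 : ℤ) * t.2.2 = 1 := Int.units_coe_mul_self _
  simp only [bt, Pi.sub_apply, Pi.smul_apply, Pi.single_eq_same, Pi.single_eq_of_ne ht, Pi.single_eq_of_ne ht.symm, smul_eq_mul]
  linear_combination hη

theorem mem_pr {t : Rt n} : t ∈ pr n ↔ t.1 < t.2.1 := by
  simp [pr]

theorem IsSimple.mem_pr {t : Rt n} (ht : IsSimple t) : t ∈ pr n := by
  rw [Crest.Agent.R172.W.mem_pr, Fin.lt_def, ht.1]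
  exact Nat.lt_succ_self _

/-- `Equiv.sum_comp`, `ε i * ε i = 1` -/
theorem act_dot (w : WG n) (μ ν : Wt n) : act w μ ⬝ᵥ act w ν = μ ⬝ᵥ ν := by
  simp only [dotProduct, act_apply]
  rw [← Equiv.sum_comp w.σ⁻¹ (fun i => μ i * ν i)]
  refine Finset.sum_congr rfl fun i _ => ?_
  have hη : (w.ε i : ℤ) * w.ε i = 1 := Int.units_coe_mul_self _
  linear_combination (μ (w.σ⁻¹ i) * ν (w.σ⁻¹ i)) * hη

/-- `abs_le` -/
theorem dom_iff {μ : Wt n} : Dom μ ↔ ∀ t ∈ pr n, 0 ≤ bt t ⬝ᵥ μ := by
  constructor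
  · intro h t ht
    have := abs_le.1 (h _ _ (mem_pr.1 ht))
    rw [bt_dot]
    rcases Int.units_eq_one_or t.2.2 with e | e <;> simp only [e, Units.val_one, Units.val_neg] <;> omega
  · intro h i j hij
    have h1 := h (i, j, 1) (mem_pr.2 hij)
    have h2 := h (i, j, -1) (mem_pr.2 hij)
    rw [bt_dot] at h1 h2
    simp only [Units.val_one, Units.val_neg] at h1 h2
    exact abs_le.2 ⟨by omega, by omega⟩

theorem sdom_iff {μ : Wt n} : SDom μ ↔ ∀ t ∈ pr n, 0 < bt t ⬝ᵥ μ := by
  constructor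
  · intro h t ht
    have := abs_lt.1 (h _ _ (mem_pr.1 ht))
    rw [bt_dot]
    rcases Int.units_eq_one_or t.2.2 with e | e <;> simp only [e, Units.val_one, Units.val_neg] <;> omega
  · intro h i j hij
    have h1 := h (i, j, 1) (mem_pr.2 hij)
    have h2 := h (i, j, -1) (mem_pr.2 hij)
    rw [bt_dot] at h1 h2
    simp only [Units.val_one, Units.val_neg] at h1 h2
    exact abs_lt.2 ⟨by omega, by omega⟩

/-- chain of consecutive inequalities `μ (i+1) ≤ μ i`, and `|μ (n-1)| ≤ μ (n-2)`, so `0 ≤ μ j` for `j ≤ n - 2` -/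
theorem dom_of_simple {μ : Wt n} (h : ∀ t, IsSimple t → 0 ≤ bt t ⬝ᵥ μ) : Dom μ := by
  have hc : ∀ (a b : ℕ) (hab : a ≤ b) (hb : b < n), μ ⟨b, hb⟩ ≤ μ ⟨a, lt_of_le_of_lt hab hb⟩ := by
    intro a b hab
    induction b, hab using Nat.le_induction with
    | base => intro hb; exact le_rfl
    | succ b hab ih =>
      intro hb
      have h1 := h (⟨b, by omega⟩, ⟨b + 1, hb⟩, 1) ⟨rfl, Or.inl rfl⟩
      rw [bt_dot] at h1
      have h2 := ih (by omega)
      simp only [Units.val_one, one_mul] at h1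
      linarith
  intro i j hij
  have hij' : (i : ℕ) < j := hij
  have hj := j.2
  have h1 := hc i j hij'.le j.2
  have h2 := hc j (n - 1) (by omega) (by omega)
  have h3 := hc i (n - 2) (by omega) (by omega)
  have h4 := h (⟨n - 2, by omega⟩, ⟨n - 1, by omega⟩, -1)
    ⟨by show n - 1 = n - 2 + 1; omega, Or.inr (by show n - 1 + 1 = n; omega)⟩
  rw [bt_dot] at h4
  simp only [Units.val_neg, Units.val_one, neg_mul, one_mul, sub_neg_eq_add] at h4
  simp only [Fin.eta] at h1 h2 h3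
  rw [abs_le]
  constructor <;> linarith

theorem dom_of_isDominantIntegral {a : Wt n} (h : IsDominantIntegral n a) : Dom a := by
  obtain ⟨-, h1, h2⟩ := h
  intro i j hij
  have hij' : (i : ℕ) < j := hij
  have hj := j.2
  have h3 := h2 ⟨n - 2, by omega⟩ ⟨n - 1, by omega⟩ (by show n - 2 + 2 = n; omega) (by show n - 1 + 1 = n; omega)
  have h4 := h1 i ⟨n - 2, by omega⟩ (by show (i : ℕ) ≤ n - 2; omega) (by show n - 2 + 2 ≤ n; omega)
  by_cases hl : (j : ℕ) + 1 = n
  · have : j = ⟨n - 1, by omega⟩ := Fin.ext (by show (j : ℕ) = n - 1; omega)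
    rw [this]
    linarith
  · have h5 := h1 i j hij.le (by omega)
    have h6 := h1 j ⟨n - 2, by omega⟩ (by show (j : ℕ) ≤ n - 2; omega) (by show n - 2 + 2 ≤ n; omega)
    have h7 := abs_nonneg (a ⟨n - 1, by omega⟩)
    rw [abs_of_nonneg (by linarith)]
    exact h5

theorem sdom_rho : SDom (rho n) := by
  intro i j hij
  have hij' : (i : ℕ) < j := hij
  have hj := j.2
  simp only [rho]
  rw [abs_lt]
  constructor <;> omega

theorem SDom.dom {μ : Wt n} (h : SDom μ) : Dom μ := by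
  exact fun i j hij => (h i j hij).le

theorem Dom.add_sdom {μ ν : Wt n} (h : Dom μ) (h' : SDom ν) : SDom (μ + ν) := by
  intro i j hij
  have h1 := h i j hij
  have h2 := h' i j hij
  have h3 := abs_add_le (μ j) (ν j)
  simp only [Pi.add_apply]
  linarith

/-- `bt t ⬝ᵥ rho n = 2` for simple `t` -/
theorem bt_dot_rho {t : Rt n} (ht : IsSimple t) : bt t ⬝ᵥ rho n = 2 := by
  obtain ⟨h1, h2⟩ := ht
  rw [bt_dot]
  simp only [rho]
  rcases h2 with h2 | h2
  · rw [h2]
    simp only [Units.val_one, one_mul]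
    omega
  · have h3 : (2 * ((n : ℤ) - 1 - ((t.2.1 : ℕ) : ℤ))) = 0 := by omega
    rw [h3, mul_zero]
    omega

/-- for `i < n - 1` one has `0 ≤ |μ (n-1)| ≤ μ i`, and `rho n (n - 1) = 0` -/
theorem Dom.dot_rho_nonneg {μ : Wt n} (h : Dom μ) : 0 ≤ μ ⬝ᵥ rho n := by
  refine Finset.sum_nonneg fun i _ => ?_
  have hi := i.2
  by_cases hl : (i : ℕ) + 1 = n
  · have : rho n i = 0 := by simp only [rho]; omega
    rw [this, mul_zero]
  · have h1 := h i ⟨n - 1, by omega⟩ (by show (i : ℕ) < n - 1; omega)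
    have h2 : 0 ≤ rho n i := by simp only [rho]; omega
    exact mul_nonneg ((abs_nonneg _).trans h1) h2

/-- `|act w μ i| = |μ (σ⁻¹ i)|`; `i ↦ |μ i|` is strictly antitone and `i ↦ |act w μ i|` is antitone, so `σ⁻¹` is monotone, hence the identity
(`Equiv.Perm` monotone on `Fin n`: `Fin.strictMono_unique` / `StrictMono.id_le`); then `ε i = 1` for `i < n - 1` because `0 < μ i` and `0 ≤ act w μ i`; the last sign from `w.h` -/
theorem eq_one_of_sdom {w : WG n} {μ : Wt n} (h : SDom μ) (h' : Dom (act w μ)) : w = 1 := by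
  have ha : ∀ i, |act w μ i| = |μ (w.σ⁻¹ i)| := fun i => by
    rw [act_apply, abs_mul]
    rcases Int.units_eq_one_or (w.ε i) with e | e <;> simp [e]
  have hf : StrictAnti fun i => |μ i| := fun i j hij => (h i j hij).trans_le (le_abs_self _)
  have hm : Monotone (w.σ⁻¹ : Equiv.Perm (Fin n)) := fun i j hij => by
    rcases hij.eq_or_lt with rfl | hij
    · exact le_rfl
    · have := (h' i j hij).trans (le_abs_self _)
      rw [ha, ha] at this
      exact hf.le_iff_ge.1 this
  have h1 : w.σ⁻¹ = 1 := (Equiv.Perm.monotone_iff _).1 hm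
  have h2 : ∀ i j, i < j → w.ε i = 1 := fun i j hij => by
    have a1 := (abs_nonneg _).trans_lt (h i j hij)
    have a2 := (abs_nonneg _).trans (h' i j hij)
    rw [act_apply, h1] at a2
    rcases Int.units_eq_one_or (w.ε i) with e | e
    · exact e
    · simp [e] at a2
      omega
  refine WG.ext (inv_eq_one.1 h1) (funext fun i => ?_)
  by_cases hi : ∃ j, i < j
  · exact hi.elim (h2 i)
  · have := w.h
    rwa [Finset.prod_eq_single i (fun j _ hj => h2 j i (lt_of_le_of_ne (not_lt.1 fun h => hi ⟨j, h⟩) hj)) (by simp)] at this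

/-- the subgroup generated by the simple reflections -/
def SG (n : ℕ) : Subgroup (WG n) := Subgroup.closure {w | ∃ t, IsSimple t ∧ w = rf t}

/-- take `u ∈ SG n` maximising `rho n ⬝ᵥ act u μ` (finite group); if `bt t ⬝ᵥ act u μ < 0` for a simple `t` then `rf t * u` is better (`act_rf`, `bt_dot_rho`); `dom_of_simple` -/
theorem exists_dom (μ : Wt n) : ∃ u ∈ SG n, Dom (act u μ) := by
  obtain ⟨u, hu, hmax⟩ := Set.exists_max_image (SG n : Set (WG n)) (fun u => rho n ⬝ᵥ act u μ) (Set.toFinite _) ⟨1, (SG n).one_mem⟩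
  refine ⟨u, hu, dom_of_simple fun t ht => ?_⟩
  have h1 := hmax (rf t * u) ((SG n).mul_mem (Subgroup.subset_closure ⟨t, ht, rfl⟩) hu)
  simp only [act_mul] at h1
  rw [act_rf (mem_pr.1 ht.mem_pr).ne, dotProduct_sub, dotProduct_smul, dotProduct_comm (rho n) (bt t), bt_dot_rho ht,
    smul_eq_mul] at h1
  omega

/-- apply `exists_dom` to `act w (rho n)` and `eq_one_of_sdom` -/
theorem SG_eq_top : SG n = ⊤ := by
  refine (Subgroup.eq_top_iff' _).2 fun w => ?_
  obtain ⟨u, hu, h⟩ := exists_dom (act w (rho n))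
  rw [← act_mul] at h
  rw [eq_inv_of_mul_eq_one_right (eq_one_of_sdom sdom_rho h)]
  exact (SG n).inv_mem hu

/-- `Subgroup.closure_induction`, `(rf t)⁻¹ = rf t` (or use finiteness) -/
theorem WG.induction {P : WG n → Prop} (h1 : P 1) (hs : ∀ t, IsSimple t → P (rf t)) (hm : ∀ w w', P w → P w' → P (w * w')) (w : WG n) : P w := by
  have hw : w ∈ (SG n).toSubmonoid := (SG_eq_top (n := n)).symm ▸ Subgroup.mem_top w
  rw [SG, Subgroup.closure_toSubmonoid_of_finite] at hw
  induction hw using Submonoid.closure_induction with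
  | mem x hx => obtain ⟨t, ht, rfl⟩ := hx; exact hs t ht
  | one => exact h1
  | mul x y _ _ hx hy => exact hm x y hx hy

/-- `w = ⟨1, fun i => if i + 1 = n then (-1) ^ (n + 1) else -1, _⟩` -/
theorem exists_dual (n : ℕ) : ∃ w : WG n, sgn w = 1 ∧ ∀ μ : Wt n, act w (-μ) = dual μ := by
  have hp : ∏ i : Fin n, (if (i : ℕ) + 1 = n then (-1 : ℤˣ) ^ (n + 1) else -1) = 1 := by
    cases n with
    | zero => simp
    | succ m =>
      rw [Fin.prod_univ_castSucc]
      have h1 : ∀ i : Fin m, (if ((Fin.castSucc i : Fin (m + 1)) : ℕ) + 1 = m + 1 then (-1 : ℤˣ) ^ (m + 1 + 1) else -1) = -1 := by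
        intro i
        rw [if_neg]
        have := i.2
        simp only [Fin.val_castSucc]
        omega
      rw [Finset.prod_congr rfl fun i _ => h1 i, if_pos (by simp), Finset.prod_const, Finset.card_univ, Fintype.card_fin,
        ← pow_add]
      exact Even.neg_one_pow ⟨m + 1, by ring⟩
  refine ⟨⟨1, fun i => if (i : ℕ) + 1 = n then (-1) ^ (n + 1) else -1, hp⟩, by simp [sgn], fun μ => funext fun i => ?_⟩
  rw [act_apply]
  simp only [dual, inv_one, Equiv.Perm.coe_one, id_eq, Pi.neg_apply]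
  split_ifs
  · push_cast
    ring
  · simp

theorem dual_add_rho (μ : Wt n) : dual (μ + rho n) = dual μ + rho n := by
  funext i
  simp only [dual, Pi.add_apply]
  split_ifs with hl
  · have : rho n i = 0 := by simp only [rho]; omega
    rw [this]
    ring
  · rfl

theorem Dom.dual {μ : Wt n} (h : Dom μ) : Dom (dual μ) := by
  intro i j hij
  have hij' : (i : ℕ) < j := hij
  have hj := j.2
  have h1 := h i j hij
  simp only [R172.dual]
  rw [if_neg (show ¬ ((i : ℕ) + 1 = n) by omega)]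
  split_ifs
  · rw [abs_mul, abs_pow, abs_neg, abs_one, one_pow, one_mul]
    exact h1
  · exact h1

end Crest.Agent.R172.W
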