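import Crest.Agent.R172.W.Wcf

/-! R172/W/Inv (owner helper92): invariant vectors -/

set_option autoImplicit false
set_option linter.unusedVariables false
set_option linter.unusedSectionVars false
open Matrix Sum Crest.AlgebraR.SpinSaturation

noncomputable section
namespace Crest.Agent.R172.W
variable {n : ℕ}

namespace MRep
variable {ι : Type*} [Fintype ι] [DecidableEq ι] (R : MRep n ι)

theorem inva_H (β : Wt n) (p q : L n) :
    (∑ i, ((β i : ℤ) : ℂ) • R.F (inl i) (inl i)) * R.F p q - R.F p q * (∑ i, ((β i : ℤ) : ℂ) • R.F (inl i) (inl i)) =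
      ((β ⬝ᵥ (ev p - ev q) : ℤ) : ℂ) • R.F p q := by
  rw [Finset.sum_mul, Finset.mul_sum, ← Finset.sum_sub_distrib, dotProduct, Int.cast_sum, Finset.sum_smul]
  refine Finset.sum_congr rfl fun i _ => ?_
  rw [smul_mul_assoc, mul_smul_comm, ← smul_sub, R.H_F, smul_smul, Int.cast_mul]

/-- `sl2_hw` for `E t`, `Fm t`, `h = ∑ i, bt t i • F (inl i) (inl i)` (`E_Fm'`, `H_F`, `bt_eq`, `bt_dot_self`), `c = bt t ⬝ᵥ a / 2` -/
theorem HW.root {R : MRep n ι} {a : Wt n} {v : ι → ℂ} (h : R.HW a v) {t : Rt n} (ht : t ∈ pr n) :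
    0 ≤ bt t ⬝ᵥ a ∧ (bt t ⬝ᵥ a = 0 → R.Fm t *ᵥ v = 0) := by
  have hne : t.1 ≠ t.2.1 := (mem_pr.1 ht).ne
  obtain ⟨k, hk, hk'⟩ := sl2_hw (R.E t) (R.Fm t) _ (R.E_Fm' ht) (c := ((bt t ⬝ᵥ a : ℤ) : ℂ) / 2)
    (by rw [Fm, R.inva_H, ← neg_sub, ← bt_eq, dotProduct_neg, bt_dot_self hne]; norm_num)
    (by rw [MRep.E, R.inva_H, ← bt_eq, bt_dot_self hne]; norm_num) h.ne (h.E t ht) (by
      rw [Matrix.sum_mulVec, dotProduct, Int.cast_sum, Finset.sum_div, Finset.sum_smul]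
      refine Finset.sum_congr rfl fun i _ => ?_
      rw [Matrix.smul_mulVec, h.H, smul_smul, Int.cast_mul, mul_div_assoc])
  have h2 : bt t ⬝ᵥ a = 2 * k := by
    have : ((bt t ⬝ᵥ a : ℤ) : ℂ) = ((2 * k : ℤ) : ℂ) := by
      push_cast at hk ⊢
      linear_combination 2 * hk
    exact_mod_cast this
  refine ⟨by omega, fun h0 => ?_⟩
  obtain rfl : k = 0 := by omega
  simpa using hk'

/-- `HW.Cas` gives `cas a ^ N = 0`; `dom_iff`, `Dom.dot_rho_nonneg` give `a ⬝ᵥ a = 0`; then `pair_cases`, `skew`, `F_anti` -/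
theorem HW.zero {R : MRep n ι} {a : Wt n} {v : ι → ℂ} (h : R.HW a v) {N : ℕ} (hN : (R.Cas ^ N) *ᵥ v = 0) :
    a = 0 ∧ ∀ p q, R.F p q *ᵥ v = 0 := by
  have h1 : ∀ N : ℕ, (R.Cas ^ N) *ᵥ v = cas a ^ N • v := fun N => by
    induction N with
    | zero => simp
    | succ N ih => rw [pow_succ, ← Matrix.mulVec_mulVec, h.Cas, Matrix.mulVec_smul, ih, smul_smul, pow_succ']
  rw [h1, smul_eq_zero] at hN
  have h2 : cas a = 0 := eq_zero_of_pow_eq_zero (hN.resolve_right h.ne)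
  have h3 : a ⬝ᵥ a + 2 * (a ⬝ᵥ rho n) = 0 := by
    rw [cas, div_eq_zero_iff] at h2
    exact_mod_cast h2.resolve_right (by norm_num)
  have h4 := (dom_iff.2 fun t ht => (h.root ht).1).dot_rho_nonneg
  have h5 : 0 ≤ a ⬝ᵥ a := Finset.sum_nonneg fun i _ => mul_self_nonneg _
  obtain rfl : a = 0 := dotProduct_self_eq_zero.1 (by omega)
  have hE := h.E
  have hF : ∀ t ∈ pr n, R.Fm t *ᵥ v = 0 := fun t ht => (h.root ht).2 (dotProduct_zero _)
  have hH : ∀ i, R.F (inl i) (inl i) *ᵥ v = 0 := fun i => by simp [h.H]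
  refine ⟨rfl, fun p q => ?_⟩
  rcases pair_cases p q with rfl | rfl | ⟨t, ht, ⟨rfl, rfl⟩ | ⟨h6, h7⟩ | ⟨rfl, rfl⟩ | ⟨h6, h7⟩⟩
  · rcases p with i | i
    · exact hH i
    · rw [R.skew, Matrix.neg_mulVec, neg_eq_zero]
      exact hH i
  · rw [R.F_anti, Matrix.zero_mulVec]
  · exact hE t ht
  · rw [R.skew, Matrix.neg_mulVec, neg_eq_zero, h6, h7]
    exact hE t ht
  · exact hF t ht
  · rw [R.skew, Matrix.neg_mulVec, neg_eq_zero, h6, h7]
    exact hF t ht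

/-- the column `l` of `π` is a highest weight vector: `F * π = π * F`, `diag`, `E_entry`, `0 < bt t ⬝ᵥ rho n` -/
theorem top {π : Matrix ι ι ℂ} (hπ : R.Cm π) {l : ι} (hl : (fun k => π k l) ≠ 0)
    (hm : ∀ l', (fun k => π k l') ≠ 0 → rho n ⬝ᵥ R.wt l' ≤ rho n ⬝ᵥ R.wt l) : R.HW (R.wt l) fun k => π k l := by
  have h1 : ∀ p q k, (R.F p q *ᵥ fun k => π k l) k = ∑ l', π k l' * R.F p q l' l := fun p q k =>
    congrFun (congrFun (hπ p q) k) l
  refine ⟨hl, fun i => funext fun k => ?_, fun t ht => funext fun k => ?_⟩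
  · rw [h1, ← Matrix.mul_apply, R.diag, Matrix.mul_diagonal, Pi.smul_apply, smul_eq_mul, mul_comm]
  · rw [E, h1]
    refine Finset.sum_eq_zero fun l' _ => ?_
    by_contra hne
    have h2 := hm l' fun h0 => left_ne_zero_of_mul hne (congrFun h0 k)
    have h3 := sdom_iff.1 sdom_rho t ht
    rw [R.E_entry (t := t) (right_ne_zero_of_mul hne), dotProduct_add, dotProduct_smul, dotProduct_comm (rho n) (bt t)] at h2
    simp only [nsmul_eq_mul, Nat.cast_ofNat] at h2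
    omega

theorem invb_top {π : Matrix ι ι ℂ} (hπ : R.Cm π) {N : ℕ} (hN : R.Cas ^ N * π = 0) {l : ι} (hl : (fun k => π k l) ≠ 0)
    (hm : ∀ l', (fun k => π k l') ≠ 0 → rho n ⬝ᵥ R.wt l' ≤ rho n ⬝ᵥ R.wt l) :
    R.wt l = 0 ∧ ∀ p q, R.F p q *ᵥ (fun k => π k l) = 0 :=
  (R.top hπ hl hm).zero (N := N) (funext fun k => congrFun (congrFun hN k) l)

theorem invb_le {π : Matrix ι ι ℂ} (hπ : R.Cm π) {N : ℕ} (hN : R.Cas ^ N * π = 0) {l : ι} (hl : (fun k => π k l) ≠ 0) :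
    rho n ⬝ᵥ R.wt l ≤ 0 := by
  classical
  obtain ⟨l', h1, h2⟩ := Finset.exists_max_image (Finset.univ.filter fun l => (fun k => π k l) ≠ 0)
    (fun l => rho n ⬝ᵥ R.wt l) ⟨l, Finset.mem_filter.2 ⟨Finset.mem_univ _, hl⟩⟩
  have h3 := fun l h => h2 l (Finset.mem_filter.2 ⟨Finset.mem_univ _, h⟩)
  have h4 := h3 l hl
  rwa [(R.invb_top hπ hN (Finset.mem_filter.1 h1).2 h3).1, dotProduct_zero] at h4

/-- `top` and `HW.zero` at a maximiser give `rho ⬝ᵥ wt l ≤ 0` on the non-zero columns, the same for `R.bar` gives `≥ 0`, so every non-zero column is a maximiser -/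
theorem col_zero {π : Matrix ι ι ℂ} (hπ : R.Cm π) {N : ℕ} (hN : R.Cas ^ N * π = 0) {l : ι} (hl : (fun k => π k l) ≠ 0) :
    R.wt l = 0 ∧ ∀ p q, R.F p q *ᵥ (fun k => π k l) = 0 := by
  refine R.invb_top hπ hN hl fun l' hl' => (R.invb_le hπ hN hl').trans ?_
  have h := R.bar.invb_le hπ.bar (N := N) (by rwa [bar_Cas]) hl
  change rho n ⬝ᵥ (-R.wt l) ≤ 0 at h
  rwa [dotProduct_neg, neg_nonpos] at h

/-- `fitting R.Cas`; `gtr 1 = gtr π + gtr (Cas * ψ)`, `tau_Cas`, `gtr π = trace π • 1` (`col_zero`), `dl_eq_A`, `trace_ne_zero_of_idem`;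
an invariant `v` has `Cas *ᵥ v = 0`, so `π *ᵥ v = v` -/
theorem inv_iff : (∃ v : ι → ℂ, v ≠ 0 ∧ ∀ p q, R.F p q *ᵥ v = 0) ↔ (dl n * chw R.wt).coeff (rho n) ≠ 0 := by
  obtain ⟨π, ψ, N, h1, h2, h3, h4, h5⟩ := fitting R.Cas
  have hπ : R.Cm π := fun p q => (h5 _ (R.cm_Cas p q)).1
  have hψ : R.Cm ψ := fun p q => (h5 _ (R.cm_Cas p q)).2
  have e1 : R.gtr π = π.trace • 1 := by
    rw [gtr, Matrix.trace, Finset.sum_smul]
    refine Finset.sum_congr rfl fun k _ => ?_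
    by_cases h : π k k = 0
    · simp [h]
    · rw [(R.col_zero hπ h3 (l := k) fun h' => h (congrFun h' k)).1, ex_zero, diag_apply]
  have e2 : (dl n * chw R.wt).coeff (rho n) = π.trace * (dl n).coeff (rho n) := by
    have h := R.tau_Cas hψ
    rw [← gtr_one, h2, gtr_add, mul_add, e1, mul_smul_comm, mul_one]
    simpa using h
  rw [e2, mul_ne_zero_iff, and_iff_left (dl_eq_A n).1]
  constructor
  · rintro ⟨v, hv, h⟩
    refine trace_ne_zero_of_idem h1 fun h0 => hv ?_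
    have h6 : R.Cas *ᵥ v = 0 := by
      have h7 : ((2 : ℂ) • R.Cas) *ᵥ v = 0 := by
        simp only [two_Cas, Matrix.sum_mulVec, ← mulVec_mulVec, h, mulVec_zero, Finset.sum_const_zero]
      rw [smul_mulVec] at h7
      exact (smul_eq_zero.1 h7).resolve_left two_ne_zero
    rw [← one_mulVec v, h2, h0, zero_add, h4, ← mulVec_mulVec, h6, mulVec_zero]
  · intro h
    obtain ⟨k, -, hk⟩ := Finset.exists_ne_zero_of_sum_ne_zero h
    have hl : (fun k' => π k' k) ≠ 0 := fun h' => hk (congrFun h' k)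
    exact ⟨_, hl, (R.col_zero hπ h3 hl).2⟩

end MRep

end Crest.Agent.R172.W
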