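import Crest.Agent.R172.W.Alt

/-! R172/W/Sl2 (owner helper92): two `sl₂` lemmas and the Fitting projection, for matrices -/

set_option autoImplicit false
set_option linter.unusedVariables false
set_option linter.unusedSectionVars false
open Matrix Sum Crest.AlgebraR.SpinSaturation

noncomputable section
namespace Crest.Agent.R172.W
variable {n : ℕ}

variable {ι : Type*} [Fintype ι] [DecidableEq ι]

/-- `v` is supported on the weight `μ` -/
def sl2aW (wt : ι → Wt n) (μ : Wt n) (v : ι → ℂ) : Prop := ∀ k, wt k ≠ μ → v k = 0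

theorem sl2a_step {e : Matrix ι ι ℂ} {wt : ι → Wt n} {γ μ : Wt n} {v : ι → ℂ}
    (he : ∀ k l, e k l ≠ 0 → wt k = wt l + γ) (hv : sl2aW wt μ v) : sl2aW wt (μ + γ) (e *ᵥ v) := by
  intro k hk
  refine Finset.sum_eq_zero fun l _ => ?_
  by_cases h : e k l = 0
  · simp [h]
  · have h2 : v l = 0 := hv l fun h' => hk (by rw [he k l h, h'])
    simp [h2]

theorem sl2a_pow {e : Matrix ι ι ℂ} {wt : ι → Wt n} {γ μ : Wt n} {v : ι → ℂ}
    (he : ∀ k l, e k l ≠ 0 → wt k = wt l + γ) (hv : sl2aW wt μ v) (N : ℕ) :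
    sl2aW wt (μ + (N : ℤ) • γ) ((e ^ N) *ᵥ v) := by
  induction N with
  | zero => simpa using hv
  | succ N ih =>
    have h := sl2a_step he ih
    rw [Matrix.mulVec_mulVec, ← pow_succ', add_assoc] at h
    rw [Nat.cast_succ, add_smul, one_smul]
    exact h

theorem sl2a_nil {e : Matrix ι ι ℂ} {wt : ι → Wt n} {γ μ : Wt n} {v : ι → ℂ} (hγ : γ ≠ 0)
    (he : ∀ k l, e k l ≠ 0 → wt k = wt l + γ) (hv : sl2aW wt μ v) : ∃ N : ℕ, (e ^ N) *ᵥ v = 0 := by
  have hinj : Function.Injective fun N : ℕ => μ + (N : ℤ) • γ := by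
    intro a b hab
    have h1 : (a : ℤ) • γ = (b : ℤ) • γ := add_left_cancel hab
    exact_mod_cast smul_left_injective ℤ hγ h1
  obtain ⟨N, hN⟩ := ((Set.finite_range wt).preimage hinj.injOn).exists_notMem
  exact ⟨N, funext fun k => sl2a_pow he hv N k fun h => hN ⟨k, h⟩⟩

theorem sl2a_h {wt : ι → Wt n} {β μ : Wt n} {v : ι → ℂ} (hv : sl2aW wt μ v) :
    (diagonal fun k => ((β ⬝ᵥ wt k : ℤ) : ℂ) / 2) *ᵥ v = (((β ⬝ᵥ μ : ℤ) : ℂ) / 2) • v := by
  funext k
  rw [Matrix.mulVec_diagonal, Pi.smul_apply, smul_eq_mul]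
  by_cases h : wt k = μ
  · rw [h]
  · rw [hv k h, mul_zero, mul_zero]

theorem sl2a_comm {e f : Matrix ι ι ℂ} {wt : ι → Wt n} {β μ : Wt n} {v : ι → ℂ} (hβ : β ⬝ᵥ β = 2)
    (hf : ∀ k l, f k l ≠ 0 → wt k = wt l + -(2 • β))
    (hef : e * f - f * e = diagonal fun k => ((β ⬝ᵥ wt k : ℤ) : ℂ) / 2) (hv : sl2aW wt μ v) (k : ℕ) :
    e *ᵥ (f ^ (k + 1)) *ᵥ v = (f ^ (k + 1)) *ᵥ e *ᵥ v + (((k : ℂ) + 1) * (((β ⬝ᵥ μ : ℤ) : ℂ) / 2 - k)) • (f ^ k) *ᵥ v := by
  have key : ∀ m : ℕ, e *ᵥ (f ^ (m + 1)) *ᵥ v = f *ᵥ e *ᵥ (f ^ m) *ᵥ v + (((β ⬝ᵥ μ : ℤ) : ℂ) / 2 - 2 * m) • (f ^ m) *ᵥ v := by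
    intro m
    have h1 := sl2a_h (β := β) (sl2a_pow hf hv m)
    have h2 : β ⬝ᵥ (μ + (m : ℤ) • -(2 • β)) = β ⬝ᵥ μ - 4 * m := by
      rw [dotProduct_add, dotProduct_smul, dotProduct_neg, two_smul, dotProduct_add, hβ, smul_eq_mul]; ring
    rw [h2, ← hef, Matrix.sub_mulVec, ← Matrix.mulVec_mulVec, ← Matrix.mulVec_mulVec] at h1
    rw [pow_succ', ← Matrix.mulVec_mulVec, eq_add_of_sub_eq' h1]
    congr 2
    push_cast; ring
  induction k with
  | zero => simpa using key 0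
  | succ k ih =>
    rw [key, ih, Matrix.mulVec_add, Matrix.mulVec_smul, Matrix.mulVec_mulVec (M := f) (N := f ^ (k + 1)),
      Matrix.mulVec_mulVec (M := f) (N := f ^ k), ← pow_succ', ← pow_succ', add_assoc, ← add_smul]
    congr 2
    push_cast; ring

theorem sl2a_inj {e f : Matrix ι ι ℂ} {wt : ι → Wt n} {β : Wt n} (hβ : β ⬝ᵥ β = 2)
    (he : ∀ k l, e k l ≠ 0 → wt k = wt l + 2 • β) (hf : ∀ k l, f k l ≠ 0 → wt k = wt l + -(2 • β))
    (hef : e * f - f * e = diagonal fun k => ((β ⬝ᵥ wt k : ℤ) : ℂ) / 2) (N : ℕ) :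
    ∀ (μ : Wt n) (v : ι → ℂ) (k : ℕ), sl2aW wt μ v → (e ^ N) *ᵥ v = 0 → (f ^ k) *ᵥ v = 0 →
      (Odd (β ⬝ᵥ μ) ∨ 2 * (k : ℤ) < β ⬝ᵥ μ + 2) → v = 0 := by
  induction N with
  | zero => intro μ v k _ h _ _; simpa using h
  | succ N ih =>
    intro μ v k hv h1 h2 h3
    have h2' : (f ^ (k + 1)) *ᵥ v = 0 := by rw [pow_succ', ← Matrix.mulVec_mulVec, h2, Matrix.mulVec_zero]
    have hd : β ⬝ᵥ (μ + 2 • β) = β ⬝ᵥ μ + 4 := by
      rw [dotProduct_add, two_smul, dotProduct_add, hβ]; ring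
    have hev : e *ᵥ v = 0 := by
      refine ih (μ + 2 • β) _ (k + 1) (sl2a_step he hv) (by rw [Matrix.mulVec_mulVec, ← pow_succ, h1]) ?_ ?_
      · have h := sl2a_comm hβ hf hef hv k
        rw [h2', h2, Matrix.mulVec_zero, smul_zero, add_zero] at h
        exact h.symm
      · rw [hd]
        rcases h3 with h3 | h3
        · exact Or.inl (h3.add_even ⟨2, by norm_num⟩)
        · right; push_cast; omega
    clear h2' ih
    induction k with
    | zero => simpa using h2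
    | succ k ihk =>
      refine ihk ?_ (h3.imp id fun h => by push_cast at h; omega)
      have h := sl2a_comm hβ hf hef hv k
      rw [h2, hev, Matrix.mulVec_zero, Matrix.mulVec_zero, zero_add] at h
      refine (smul_eq_zero.1 h.symm).resolve_left (mul_ne_zero (by exact_mod_cast Nat.succ_ne_zero k) fun h0 => ?_)
      have h5 : ((β ⬝ᵥ μ : ℤ) : ℂ) = ((2 * (k : ℤ) : ℤ) : ℂ) := by push_cast; linear_combination 2 * h0
      have h6 : β ⬝ᵥ μ = 2 * (k : ℤ) := by exact_mod_cast h5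
      rcases h3 with ⟨m, hm⟩ | h3
      · omega
      · push_cast at h3; omega

theorem sl2a_le {e f : Matrix ι ι ℂ} {wt : ι → Wt n} {β : Wt n} (hβ : β ⬝ᵥ β = 2)
    (he : ∀ k l, e k l ≠ 0 → wt k = wt l + 2 • β) (hf : ∀ k l, f k l ≠ 0 → wt k = wt l + -(2 • β))
    (hef : e * f - f * e = diagonal fun k => ((β ⬝ᵥ wt k : ℤ) : ℂ) / 2) (μ ν : Wt n) (j : ℕ) (hj : β ⬝ᵥ μ = 2 * j)
    (hν : ν = μ - (β ⬝ᵥ μ) • β) : Fintype.card {k // wt k = μ} ≤ Fintype.card {k // wt k = ν} := by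
  have hβ2 : (2 • β : Wt n) ≠ 0 := fun h => by
    have : β ⬝ᵥ (2 • β) = 4 := by rw [two_smul, dotProduct_add, hβ]; rfl
    rw [h, dotProduct_zero] at this
    omega
  let M : Matrix {k // wt k = ν} {k // wt k = μ} ℂ := (f ^ j).submatrix Subtype.val Subtype.val
  have hM : Function.Injective M.mulVecLin := by
    rw [injective_iff_map_eq_zero]
    intro x hx
    let v : ι → ℂ := fun k => if h : wt k = μ then x ⟨k, h⟩ else 0
    have hv : sl2aW wt μ v := fun k hk => dif_neg hk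
    have hfv : (f ^ j) *ᵥ v = 0 := by
      funext l
      by_cases hl : wt l = ν
      · have h1 : ∑ k : {k // wt k = μ}, (f ^ j) l k * x k = 0 := congrFun hx ⟨l, hl⟩
        have h2 : ∑ k : {k // ¬ wt k = μ}, (f ^ j) l k * v k = 0 :=
          Finset.sum_eq_zero fun k _ => by rw [hv k k.2, mul_zero]
        have h3 := Fintype.sum_subtype_add_sum_subtype (fun k => wt k = μ) fun k => (f ^ j) l k * v k
        have h4 : ∑ k : {k // wt k = μ}, (f ^ j) l k * v k = 0 := by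
          rw [← h1]; exact Finset.sum_congr rfl fun k _ => by rw [show v k = x k from dif_pos k.2]
        rw [h2, h4, add_zero] at h3
        exact h3.symm
      · refine sl2a_pow hf hv j l fun h => hl ?_
        rw [h, hν, hj, smul_neg, ← sub_eq_add_neg, two_smul, two_mul, add_smul, smul_add]
    obtain ⟨N, hN⟩ := sl2a_nil hβ2 he hv
    have h0 := sl2a_inj hβ he hf hef N μ v j hv hN hfv (Or.inr (by omega))
    funext k
    have := congrFun h0 k
    rwa [show v k = x k from dif_pos k.2] at this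
  simpa using LinearMap.finrank_le_finrank_of_injective hM

theorem sl2a_odd {e f : Matrix ι ι ℂ} {wt : ι → Wt n} {β : Wt n} (hβ : β ⬝ᵥ β = 2)
    (he : ∀ k l, e k l ≠ 0 → wt k = wt l + 2 • β) (hf : ∀ k l, f k l ≠ 0 → wt k = wt l + -(2 • β))
    (hef : e * f - f * e = diagonal fun k => ((β ⬝ᵥ wt k : ℤ) : ℂ) / 2) (k : ι) : ¬ Odd (β ⬝ᵥ wt k) := by
  intro h
  have hβ2 : (2 • β : Wt n) ≠ 0 := fun h => by
    have : β ⬝ᵥ (2 • β) = 4 := by rw [two_smul, dotProduct_add, hβ]; rfl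
    rw [h, dotProduct_zero] at this
    omega
  have hv : sl2aW wt (wt k) (Pi.single k 1) := fun l hl => Pi.single_eq_of_ne (fun h' => hl (by rw [h'])) _
  obtain ⟨N, hN⟩ := sl2a_nil hβ2 he hv
  obtain ⟨j, hj⟩ := sl2a_nil (neg_ne_zero.2 hβ2) hf hv
  simpa using congrFun (sl2a_inj hβ he hf hef N _ _ j hv hN hj (Or.inl h)) k

theorem sl2a_coeff (wt : ι → Wt n) (μ : Wt n) : (chw wt).coeff μ = (Fintype.card {k // wt k = μ} : ℂ) := by
  simp [chw, ex, Fintype.card_subtype, Finsupp.single_apply, Finset.sum_apply']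


/-- Symmetry of multiplicities by traces.  `h` = the diagonal matrix, `Ω = h * h + 2 h + 4 f e = h * h - 2 h + 4 e f` commutes with `e`, `f`.
`τ κ φ = ∑ k with wt k = κ, φ k k`, `a κ φ = τ κ φ - τ (κ + 2 β) φ`, `J κ = β ⬝ᵥ κ / 2 + 1`.  For `φ` commuting with `f`:
`τ κ (f e φ) = τ (κ + 2 β) (e f φ)`, so `a κ (Ω φ) = (J κ ^ 2 - 1) a κ φ` and `a κ (p(Ω)) = p (J κ ^ 2 - 1) a κ 1` for every polynomial `p`.  On the line
`κ + ℤ β` (only finitely many points matter; `J (κ + m β) = J κ + m`) the sum of the `a` telescopes to `0`; a polynomial vanishing at the other values of `J ^ 2 - 1` gives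
`a κ 1 + a κ' 1 = 0` for `κ' = s κ - 2 β`, `s κ = κ - (β ⬝ᵥ κ) β`.  Hence `g κ = m κ - m (s κ)` satisfies `g κ = g (κ + 2 β)` and has finite support, so `g = 0`. -/
theorem sl2_sym (e f : Matrix ι ι ℂ) (wt : ι → Wt n) (β : Wt n) (hβ : β ⬝ᵥ β = 2)
    (he : ∀ k l, e k l ≠ 0 → wt k = wt l + 2 • β) (hf : ∀ k l, f k l ≠ 0 → wt l = wt k + 2 • β)
    (hef : e * f - f * e = diagonal fun k => ((β ⬝ᵥ wt k : ℤ) : ℂ) / 2) (μ : Wt n) :
    (chw wt).coeff (μ - (β ⬝ᵥ μ) • β) = (chw wt).coeff μ := by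
  have hf' : ∀ k l, f k l ≠ 0 → wt k = wt l + -(2 • β) := fun k l h => by rw [hf k l h, add_neg_cancel_right]
  have hs : ∀ μ : Wt n, β ⬝ᵥ (μ - (β ⬝ᵥ μ) • β) = -(β ⬝ᵥ μ) := fun μ => by
    rw [dotProduct_sub, dotProduct_smul, hβ, smul_eq_mul]; ring
  have main : ∀ (μ : Wt n) (j : ℕ), β ⬝ᵥ μ = 2 * j →
      Fintype.card {k // wt k = μ - (β ⬝ᵥ μ) • β} = Fintype.card {k // wt k = μ} := by
    intro μ j hj
    refine le_antisymm ?_ (sl2a_le hβ he hf' hef μ _ j hj rfl)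
    refine sl2a_le (e := f) (f := e) (β := -β) (by simpa using hβ) (by simpa using hf') (by simpa using he) ?_ _ _ j ?_ ?_
    · rw [← neg_sub, hef, Matrix.diagonal_neg]
      congr 1
      funext k
      rw [neg_dotProduct]; push_cast; ring
    · rw [neg_dotProduct, hs, neg_neg, hj]
    · rw [neg_dotProduct, hs, neg_neg, smul_neg, sub_neg_eq_add, sub_add_cancel]
  rw [sl2a_coeff, sl2a_coeff]
  congr 1
  rcases Int.even_or_odd (β ⬝ᵥ μ) with ⟨j, hj⟩ | h
  · rcases le_total 0 j with h0 | h0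
    · exact main μ j.toNat (by omega)
    · have h1 := main (μ - (β ⬝ᵥ μ) • β) (-j).toNat (by rw [hs]; omega)
      rw [hs, neg_smul, sub_neg_eq_add, sub_add_cancel] at h1
      exact h1.symm
  · rw [Fintype.card_eq_zero_iff.2 ⟨fun k => sl2a_odd hβ he hf' hef k.1 (by rw [k.2, hs]; exact h.neg)⟩,
      Fintype.card_eq_zero_iff.2 ⟨fun k => sl2a_odd hβ he hf' hef k.1 (by rw [k.2]; exact h)⟩]

theorem sl2b_h (f h : Matrix ι ι ℂ) (hf : h * f - f * h = (-2 : ℂ) • f) {v : ι → ℂ} {c : ℂ} (h2 : h *ᵥ v = c • v) (k : ℕ) :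
    h *ᵥ ((f ^ k) *ᵥ v) = (c - 2 * k) • ((f ^ k) *ᵥ v) := by
  induction k with
  | zero => simpa using h2
  | succ k ih =>
    have e1 : h * f = f * h + (-2 : ℂ) • f := by rw [← hf]; abel
    rw [pow_succ', ← mulVec_mulVec, mulVec_mulVec, e1, add_mulVec, ← mulVec_mulVec, ih, smul_mulVec, mulVec_smul, ← add_smul]
    congr 1
    push_cast
    ring

theorem sl2b_e (e f h : Matrix ι ι ℂ) (hef : e * f - f * e = h) (hf : h * f - f * h = (-2 : ℂ) • f) {v : ι → ℂ} {c : ℂ}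
    (h1 : e *ᵥ v = 0) (h2 : h *ᵥ v = c • v) (k : ℕ) :
    e *ᵥ ((f ^ (k + 1)) *ᵥ v) = (((k : ℂ) + 1) * (c - k)) • ((f ^ k) *ᵥ v) := by
  have e1 : e * f = f * e + h := by rw [← hef]; abel
  induction k with
  | zero => rw [zero_add, pow_one, mulVec_mulVec, e1, add_mulVec, ← mulVec_mulVec, h1, h2]; simp
  | succ k ih =>
    rw [pow_succ' f (k + 1), ← mulVec_mulVec, mulVec_mulVec, e1, add_mulVec, ← mulVec_mulVec, ih, sl2b_h f h hf h2, mulVec_smul,
      mulVec_mulVec, ← pow_succ', ← add_smul]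
    congr 1
    push_cast
    ring

/-- `e f^(k+1) v = (k+1) (c - k) f^k v`, `h f^k v = (c - 2 k) f^k v`; some `f^m v` vanishes (eigenvectors for distinct eigenvalues are independent,
`Module.End.eigenvectors_linearIndependent'`, or `IsSl2Triple.HasPrimitiveVectorWith.exists_nat`, `pow_toEnd_f_eq_zero_of_eq_nat` in `Module.End ℂ (ι → ℂ)`; if `h = 0` then `f = 0`) -/
theorem sl2_hw (e f h : Matrix ι ι ℂ) (hef : e * f - f * e = h) (hf : h * f - f * h = (-2 : ℂ) • f) (he : h * e - e * h = (2 : ℂ) • e)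
    {v : ι → ℂ} (hv : v ≠ 0) {c : ℂ} (h1 : e *ᵥ v = 0) (h2 : h *ᵥ v = c • v) : ∃ k : ℕ, c = k ∧ (f ^ (k + 1)) *ᵥ v = 0 := by
  classical
  have hex : ∃ m : ℕ, (f ^ m) *ᵥ v = 0 := by
    by_contra hn
    push Not at hn
    refine Module.Finite.not_linearIndependent_of_infinite (R := ℂ) (fun m : ℕ => (f ^ m) *ᵥ v) ?_
    refine Module.End.eigenvectors_linearIndependent' (Matrix.toLin' h) (fun m : ℕ => c - 2 * m) ?_ _ fun m => ?_
    · intro a b hab
      have : (a : ℂ) = b := by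
        have h3 : c - 2 * (a : ℂ) = c - 2 * b := hab
        linear_combination (-1 / 2 : ℂ) * h3
      exact_mod_cast this
    · refine ⟨?_, hn m⟩
      rw [Module.End.mem_eigenspace_iff, Matrix.toLin'_apply]
      exact sl2b_h f h hf h2 m
  have h0 : Nat.find hex ≠ 0 := by
    intro h0
    have := Nat.find_spec hex
    rw [h0] at this
    exact hv (by simpa using this)
  obtain ⟨k, hk⟩ := Nat.exists_eq_succ_of_ne_zero h0
  have hz : (f ^ (k + 1)) *ᵥ v = 0 := by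
    have := Nat.find_spec hex
    rwa [hk] at this
  have hnz : (f ^ k) *ᵥ v ≠ 0 := Nat.find_min hex (by omega)
  refine ⟨k, ?_, hz⟩
  have h3 := sl2b_e e f h hef hf h1 h2 k
  rw [hz, mulVec_zero] at h3
  rcases smul_eq_zero.1 h3.symm with h4 | h4
  · rcases mul_eq_zero.1 h4 with h5 | h5
    · exact absurd h5 (Nat.cast_add_one_ne_zero k)
    · exact sub_eq_zero.1 h5
  · exact absurd h4 hnz

theorem sl2b_comm (C X : Matrix ι ι ℂ) (h : X * C = C * X) (p : Polynomial ℂ) :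
    X * Polynomial.aeval C p = Polynomial.aeval C p * X := by
  induction p using Polynomial.induction_on' with
  | add p q hp hq => rw [map_add, mul_add, add_mul, hp, hq]
  | monomial k a =>
    rw [Polynomial.aeval_monomial, Algebra.algebraMap_eq_smul_one, smul_mul_assoc, one_mul, mul_smul_comm, smul_mul_assoc,
      (Commute.pow_right (show Commute X C from h) k).eq]

/-- `C.charpoly = X ^ N * q` with `¬ X ∣ q` (`Polynomial.exists_eq_pow_rootMultiplicity_mul_and_not_dvd`), `u * X ^ (N + 1) + v * q = 1`,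
`π = aeval C (v * q)`, `ψ = aeval C (u * X ^ N)`, `Matrix.aeval_self_charpoly` -/
theorem fitting (C : Matrix ι ι ℂ) : ∃ (π ψ : Matrix ι ι ℂ) (N : ℕ), π * π = π ∧ 1 = π + C * ψ ∧ C ^ N * π = 0 ∧ C * ψ = ψ * C ∧
    ∀ X, X * C = C * X → X * π = π * X ∧ X * ψ = ψ * X := by
  obtain ⟨q, hq, hnd⟩ := Polynomial.exists_eq_pow_rootMultiplicity_mul_and_not_dvd C.charpoly C.charpoly_monic.ne_zero 0
  set N := C.charpoly.rootMultiplicity 0
  rw [map_zero, sub_zero] at hq hnd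
  have hco : IsCoprime ((Polynomial.X : Polynomial ℂ) ^ (N + 1)) q :=
    (Polynomial.irreducible_X.coprime_iff_not_dvd.2 hnd).pow_left
  obtain ⟨u, v, huv⟩ := hco
  have hz : Polynomial.aeval C (Polynomial.X ^ N * q) = 0 := by rw [← hq]; exact Matrix.aeval_self_charpoly C
  have h1 : (1 : Matrix ι ι ℂ) = Polynomial.aeval C (v * q) + C * Polynomial.aeval C (u * Polynomial.X ^ N) := by
    have : (1 : Polynomial ℂ) = v * q + Polynomial.X * (u * Polynomial.X ^ N) := by rw [← huv]; ring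
    have h2 := congrArg (Polynomial.aeval C) this
    rwa [map_one, map_add, map_mul _ Polynomial.X, Polynomial.aeval_X] at h2
  refine ⟨Polynomial.aeval C (v * q), Polynomial.aeval C (u * Polynomial.X ^ N), N, ?_, h1, ?_, sl2b_comm C C rfl _,
    fun X hX => ⟨sl2b_comm C X hX _, sl2b_comm C X hX _⟩⟩
  · have : v * q * (v * q) = v * q - (v * u * Polynomial.X) * (Polynomial.X ^ N * q) := by
      linear_combination (v * q) * huv
    rw [← map_mul, this, map_sub, map_mul _ (v * u * Polynomial.X), hz, mul_zero, sub_zero]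
  · have : (Polynomial.X : Polynomial ℂ) ^ N * (v * q) = v * (Polynomial.X ^ N * q) := by ring
    have h2 := congrArg (Polynomial.aeval C) this
    rwa [map_mul _ v, hz, mul_zero, map_mul, map_pow, Polynomial.aeval_X] at h2

/-- `LinearMap.IsIdempotentElem.trace_eq_zero_iff` for `Matrix.toLin' π` -/
theorem trace_ne_zero_of_idem {π : Matrix ι ι ℂ} (h : π * π = π) (h0 : π ≠ 0) : π.trace ≠ 0 := by
  intro ht
  have hi : IsIdempotentElem (Matrix.toLin' π) := by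
    unfold IsIdempotentElem
    rw [Module.End.mul_eq_comp, ← Matrix.toLin'_mul, h]
  have := (LinearMap.IsIdempotentElem.trace_eq_zero_iff hi).1 (by rw [Matrix.trace_toLin'_eq]; exact ht)
  exact h0 ((LinearEquiv.map_eq_zero_iff _).1 this)

end Crest.Agent.R172.W
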