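import Crest.Agent.R172.W.Cas
import Crest.Agent.R172.W.Dl

/-! R172/W/Wcf (owner helper92): graded traces, the Laplacian identity and the character formula -/

set_option autoImplicit false
set_option linter.unusedVariables false
set_option linter.unusedSectionVars false
open Matrix Sum Crest.AlgebraR.SpinSaturation

noncomputable section
namespace Crest.Agent.R172.W
variable {n : ℕ}

namespace MRep
variable {ι : Type*} [Fintype ι] [DecidableEq ι] (R : MRep n ι)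

theorem gtr_one : R.gtr 1 = chw R.wt := by
  simp [gtr, chw]

theorem gtr_add (φ ψ : Matrix ι ι ℂ) : R.gtr (φ + ψ) = R.gtr φ + R.gtr ψ := by
  simp [gtr, add_smul, Finset.sum_add_distrib]

theorem gtr_smul (c : ℂ) (φ : Matrix ι ι ℂ) : R.gtr (c • φ) = c • R.gtr φ := by
  simp [gtr, Finset.smul_sum, mul_smul]

theorem gtr_sum {κ : Type*} (s : Finset κ) (φ : κ → Matrix ι ι ℂ) : R.gtr (∑ a ∈ s, φ a) = ∑ a ∈ s, R.gtr (φ a) := by
  simp only [gtr, Matrix.sum_apply, Finset.sum_smul]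
  exact Finset.sum_comm

/-- `Matrix.mul_apply`, `Finset.sum_comm`, `E_entry`, `ex_add` -/
theorem gtr_E (t : Rt n) (Y : Matrix ι ι ℂ) : R.gtr (R.E t * Y) = ex (2 • bt t) * R.gtr (Y * R.E t) := by
  simp only [gtr, Matrix.mul_apply, Finset.sum_smul, Finset.mul_sum, mul_smul_comm]
  rw [Finset.sum_comm]
  refine Finset.sum_congr rfl fun l _ => Finset.sum_congr rfl fun k _ => ?_
  by_cases h : R.E t k l = 0
  · simp [h]
  · rw [R.E_entry h, add_comm, ex_add, mul_comm (Y l k)]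

/-- `Dv_ex` -/
theorem Dv_gtr (β : Wt n) (φ : Matrix ι ι ℂ) :
    Dv β (R.gtr φ) = (2 : ℂ) • R.gtr ((diagonal fun k => ((β ⬝ᵥ R.wt k : ℤ) : ℂ) / 2) * φ) := by
  simp only [gtr, map_sum, map_smul, Dv_ex, Finset.smul_sum, diagonal_mul, smul_smul]
  exact Finset.sum_congr rfl fun k _ => by congr 1; ring

theorem wcfa_Lap_ex (μ : Wt n) : Lap (ex μ) = ((μ ⬝ᵥ μ : ℤ) : ℂ) • ex μ := by
  ext ν
  simp only [Lap, coeff_mulC, AddMonoidAlgebra.coeff_smul, Finsupp.smul_apply, coeff_ex, smul_eq_mul]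
  split_ifs with h
  · rw [h]
  · simp

theorem Lap_gtr (φ : Matrix ι ι ℂ) : Lap (R.gtr φ) = (4 : ℂ) • R.gtr ((∑ i, R.F (inl i) (inl i) * R.F (inl i) (inl i)) * φ) := by
  simp only [gtr, map_sum, map_smul, wcfa_Lap_ex, Finset.smul_sum, R.diag, diagonal_mul_diagonal, Finset.sum_mul,
    Matrix.sum_apply, diagonal_mul, smul_smul]
  refine Finset.sum_congr rfl fun k _ => ?_
  congr 1
  simp only [dotProduct, Int.cast_sum, Int.cast_mul, Finset.mul_sum]
  exact Finset.sum_congr rfl fun i _ => by ring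

/-- with `T = gtr (Fm t * E t * φ)`: `gtr (E t * Fm t * φ) = ex (2 β) * T`, `Dv β (gtr φ) = 2 (ex (2 β) - 1) T` -/
theorem root_gtr {φ : Matrix ι ι ℂ} (hφ : R.Cm φ) {t : Rt n} (ht : t ∈ pr n) :
    (ex (bt t) + ex (-bt t)) * Dv (bt t) (R.gtr φ) =
      (ex (bt t) - ex (-bt t)) * ((2 : ℂ) • R.gtr ((R.E t * R.Fm t + R.Fm t * R.E t) * φ)) := by
  have h1 : R.gtr (R.E t * R.Fm t * φ) = ex (bt t) * ex (bt t) * R.gtr (R.Fm t * R.E t * φ) := by
    rw [mul_assoc, gtr_E, two_smul, ex_add, mul_assoc (R.Fm t), mul_assoc (R.Fm t), E, hφ]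
  have h2 : ex (bt t) * ex (-bt t) = 1 := by rw [← ex_add, add_neg_cancel, ex_zero]
  have h3 : R.gtr ((R.E t * R.Fm t - R.Fm t * R.E t) * φ) =
      R.gtr (R.E t * R.Fm t * φ) - R.gtr (R.Fm t * R.E t * φ) := by
    rw [eq_sub_iff_add_eq, ← gtr_add, sub_mul, sub_add_cancel]
  rw [Dv_gtr, ← R.E_Fm ht, h3, add_mul (R.E t * R.Fm t), gtr_add, h1, two_smul, two_smul]
  linear_combination (4 * ex (bt t) * R.gtr (R.Fm t * R.E t * φ)) * h2

/-- `Lap_mul`, `Lap_dl`, `grad_dl`, `root_gtr`, `Finset.prod_erase_mul`, `Lap_gtr` -/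
theorem lap_identity {φ : Matrix ι ι ℂ} (hφ : R.Cm φ) : Lap (dl n * R.gtr φ) =
    ((rho n ⬝ᵥ rho n : ℤ) : ℂ) • (dl n * R.gtr φ) + (4 : ℂ) • (dl n * R.gtr (R.Cas * φ)) := by
  have h1 : ∑ t ∈ pr n, (∏ s ∈ (pr n).erase t, (ex (bt s) - ex (-bt s))) * ((ex (bt t) + ex (-bt t)) * Dv (bt t) (R.gtr φ)) =
      (2 : ℂ) • (dl n * ∑ t ∈ pr n, R.gtr ((R.E t * R.Fm t + R.Fm t * R.E t) * φ)) := by
    rw [Finset.mul_sum, Finset.smul_sum]
    refine Finset.sum_congr rfl fun t ht => ?_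
    rw [R.root_gtr hφ ht, ← mul_assoc, Finset.prod_erase_mul _ _ ht, mul_smul_comm]
    rfl
  have h2 : R.gtr (R.Cas * φ) = R.gtr ((∑ i, R.F (inl i) (inl i) * R.F (inl i) (inl i)) * φ) +
      ∑ t ∈ pr n, R.gtr ((R.E t * R.Fm t + R.Fm t * R.E t) * φ) := by
    rw [Cas, add_mul, gtr_add, Finset.sum_mul (pr n), gtr_sum R (pr n)]
  rw [Lap_mul, Lap_dl, grad_dl, h1, Lap_gtr, h2, smul_mul_assoc, mul_smul_comm, mul_smul_comm, two_mul, mul_add]
  module

/-- the coefficient of `lap_identity` at `rho n` -/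
theorem tau_Cas {φ : Matrix ι ι ℂ} (hφ : R.Cm φ) : (dl n * R.gtr (R.Cas * φ)).coeff (rho n) = 0 := by
  have h := congrArg (fun f : GR n => f.coeff (rho n)) (R.lap_identity hφ)
  simp only [Lap, coeff_mulC, AddMonoidAlgebra.coeff_add, AddMonoidAlgebra.coeff_smul, Finsupp.add_apply, Finsupp.smul_apply,
    smul_eq_mul] at h
  linear_combination (-1 / 4 : ℂ) * h

/-- `E t * Fm t = Fm t * E t + ∑ …` (`E_Fm'`), `sum_bt` -/
theorem HW.Cas {R : MRep n ι} {a : Wt n} {v : ι → ℂ} (h : R.HW a v) : R.Cas *ᵥ v = cas a • v := by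
  have h1 : ∀ t ∈ pr n, (R.E t * R.Fm t + R.Fm t * R.E t) *ᵥ v = (((bt t ⬝ᵥ a : ℤ) : ℂ) / 2) • v := fun t ht => by
    rw [← sub_add_cancel (R.E t * R.Fm t) (R.Fm t * R.E t), R.E_Fm' ht, add_mulVec, add_mulVec, ← mulVec_mulVec, h.E t ht,
      mulVec_zero, add_zero, add_zero, sum_mulVec]
    simp only [smul_mulVec, h.H, smul_smul, ← Finset.sum_smul, dotProduct]
    congr 1
    push_cast
    rw [Finset.sum_div]
    exact Finset.sum_congr rfl fun i _ => by ring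
  have h2 : ∑ t ∈ pr n, bt t ⬝ᵥ a = a ⬝ᵥ rho n := by rw [← sum_dotProduct, sum_bt, dotProduct_comm]
  rw [MRep.Cas, add_mulVec, sum_mulVec, sum_mulVec, Finset.sum_congr rfl h1]
  simp only [← mulVec_mulVec, h.H, mulVec_smul, smul_smul, ← Finset.sum_smul, ← add_smul]
  congr 1
  rw [← Finset.sum_div, ← Int.cast_sum, h2, cas]
  simp only [dotProduct]
  push_cast
  have h3 : ∑ i, (a i : ℂ) / 2 * ((a i : ℂ) / 2) = (∑ i, (a i : ℂ) * (a i : ℂ)) / 4 := by
    rw [Finset.sum_div]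
    exact Finset.sum_congr rfl fun i _ => by ring
  rw [h3]
  generalize ∑ i, (a i : ℂ) * (a i : ℂ) = x
  generalize ∑ i, (a i : ℂ) * (rho n i : ℂ) = y
  ring

/-- Weyl character formula.  `f = dl n * chw wt` is alternating and non-zero; if `f.coeff ν ≠ 0` then `ν ⬝ᵥ ν = (a + ρ) ⬝ᵥ (a + ρ)` (`lap_identity` at `φ = 1`) and
`Le ν (a + ρ)` (`f = ∑ k, ex (wt k) * dl n`, `supp_dl`); for strictly dominant `ν` take `κ = ν`: `(ν - (a + ρ)) ⬝ᵥ (ν - (a + ρ)) ≤ 0`; `Alt.eq_smul_A` -/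
theorem wcf [Nonempty ι] {a : Wt n} (ha : Dom a) (hC : R.Cas = cas a • (1 : Matrix ι ι ℂ)) (hle : ∀ k, Le (R.wt k) a) :
    ∃ m : ℂ, m ≠ 0 ∧ dl n * chw R.wt = m • A (a + rho n) := by
  have hf : Alt (dl n * chw R.wt) := alt_dl.mul_sym R.sym_chw
  have hA := hf.eq_smul_A (ha.add_sdom sdom_rho) fun ν hν hc => by
    have h := congrArg (fun f : GR n => f.coeff ν) (R.lap_identity (φ := 1) fun p q => by rw [mul_one, one_mul])
    rw [hC, mul_one, gtr_smul, gtr_one, mul_smul_comm] at h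
    simp only [Lap, coeff_mulC, AddMonoidAlgebra.coeff_add, AddMonoidAlgebra.coeff_smul, Finsupp.add_apply, Finsupp.smul_apply,
      smul_eq_mul] at h
    have h1 : ν ⬝ᵥ ν = rho n ⬝ᵥ rho n + (a ⬝ᵥ a + 2 * (a ⬝ᵥ rho n)) := by
      have : ((ν ⬝ᵥ ν : ℤ) : ℂ) = ((rho n ⬝ᵥ rho n + (a ⬝ᵥ a + 2 * (a ⬝ᵥ rho n)) : ℤ) : ℂ) := by
        refine mul_right_cancel₀ hc ?_
        rw [h, cas, Int.cast_add (rho n ⬝ᵥ rho n)]
        ring
      exact_mod_cast this
    obtain ⟨k, hk⟩ : ∃ k, (dl n).coeff (ν - R.wt k) ≠ 0 := by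
      by_contra hcon
      push Not at hcon
      refine hc ?_
      rw [mul_comm, chw, Finset.sum_mul, AddMonoidAlgebra.coeff_sum, Finsupp.finsetSum_apply]
      exact Finset.sum_eq_zero fun k _ => by rw [coeff_ex_mul, hcon]
    have h2 := (supp_dl hk).1 ν hν.dom
    have h3 := hle k ν hν.dom
    rw [dotProduct_sub] at h2
    have h4 : (ν - (a + rho n)) ⬝ᵥ (ν - (a + rho n)) = 0 := by
      refine le_antisymm ?_ (Finset.sum_nonneg fun i _ => mul_self_nonneg _)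
      simp only [sub_dotProduct, dotProduct_sub, add_dotProduct, dotProduct_add, dotProduct_comm a ν,
        dotProduct_comm (rho n) ν, dotProduct_comm (rho n) a]
      omega
    exact sub_eq_zero.1 (dotProduct_self_eq_zero.1 h4)
  refine ⟨_, fun h0 => ?_, hA⟩
  rw [h0, zero_smul] at hA
  exact mul_ne_zero dl_ne_zero (chw_ne_zero _) hA

end MRep

end Crest.Agent.R172.W
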